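import Mathlib

namespace Vale.Agent.P121

open MeasureTheory
open scoped ENNReal

variable {X : Type*} [MeasurableSpace X]

/-- couplings with three equal marginals -/
def IsCpl (μ : Measure X) (π : Measure (X × X × X)) : Prop :=
  π.map (fun p => p.1) = μ ∧ π.map (fun p => p.2.1) = μ ∧ π.map (fun p => p.2.2) = μ

/-- the Kantorovich value -/
noncomputable def kant (κ : X → X → X → ℝ≥0∞) (μ : Measure X) : ℝ≥0∞ :=
  ⨅ (π : Measure (X × X × X)) (_ : IsCpl μ π), ∫⁻ p, κ p.1 p.2.1 p.2.2 ∂π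

theorem lintegral_add3 {Y : Type*} [MeasurableSpace Y] {m : Measure Y} {f g h : Y → ℝ≥0∞}
    (hf : Measurable f) (hg : Measurable g) :
    ∫⁻ y, (f y + g y + h y) ∂m = ∫⁻ y, f y ∂m + ∫⁻ y, g y ∂m + ∫⁻ y, h y ∂m := by
  rw [lintegral_add_left (f := fun y => f y + g y) (hf.add hg), lintegral_add_left hf]

theorem weak_duality {κ : X → X → X → ℝ≥0∞} {μ : Measure X} {u : X → ℝ≥0∞} (hu : Measurable u)
    {W : Set X} (hW : ∀ᵐ x ∂μ, x ∈ W)
    (hle : ∀ x ∈ W, ∀ y ∈ W, ∀ z ∈ W, u x + u y + u z ≤ κ x y z)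
    {π : Measure (X × X × X)} (hπ : IsCpl μ π) :
    3 * ∫⁻ x, u x ∂μ ≤ ∫⁻ p, κ p.1 p.2.1 p.2.2 ∂π := by
  obtain ⟨h1, h2, h3⟩ := hπ
  have m1 : Measurable (fun p : X × X × X => p.1) := measurable_fst
  have m2 : Measurable (fun p : X × X × X => p.2.1) := measurable_fst.comp measurable_snd
  have m3 : Measurable (fun p : X × X × X => p.2.2) := measurable_snd.comp measurable_snd
  have w1 : ∀ᵐ p ∂π, p.1 ∈ W := ae_of_ae_map m1.aemeasurable (by rw [h1]; exact hW)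
  have w2 : ∀ᵐ p ∂π, p.2.1 ∈ W := ae_of_ae_map m2.aemeasurable (by rw [h2]; exact hW)
  have w3 : ∀ᵐ p ∂π, p.2.2 ∈ W := ae_of_ae_map m3.aemeasurable (by rw [h3]; exact hW)
  have i1 : ∫⁻ p, u p.1 ∂π = ∫⁻ x, u x ∂μ := by
    rw [← h1, lintegral_map hu m1]
  have i2 : ∫⁻ p, u p.2.1 ∂π = ∫⁻ x, u x ∂μ := by
    conv_rhs => rw [← h2]
    rw [lintegral_map hu m2]
  have i3 : ∫⁻ p, u p.2.2 ∂π = ∫⁻ x, u x ∂μ := by
    conv_rhs => rw [← h3]
    rw [lintegral_map hu m3]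
  calc 3 * ∫⁻ x, u x ∂μ = ∫⁻ p, u p.1 ∂π + ∫⁻ p, u p.2.1 ∂π + ∫⁻ p, u p.2.2 ∂π := by
        rw [i1, i2, i3]
        ring
    _ = ∫⁻ p, (u p.1 + u p.2.1 + u p.2.2) ∂π := by
        rw [lintegral_add3 (f := fun p : X × X × X => u p.1) (g := fun p : X × X × X => u p.2.1)
          (hu.comp m1) (hu.comp m2)]
    _ ≤ ∫⁻ p, κ p.1 p.2.1 p.2.2 ∂π := by
        apply lintegral_mono_ae
        filter_upwards [w1, w2, w3] with p p1 p2 p3
        exact hle _ p1 _ p2 _ p3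

/-- push forward of `ν` under a triple of maps -/
noncomputable def tri (ν : Measure X) (p q r : X → X) : Measure (X × X × X) :=
  ν.map (fun a => (p a, q a, r a))

noncomputable def cyc (ν : Measure X) (p q r : X → X) : Measure (X × X × X) :=
  tri ν p q r + tri ν q r p + tri ν r p q

noncomputable def sum3 (ν : Measure X) (p q r : X → X) : Measure X :=
  ν.map p + ν.map q + ν.map r

theorem meas_triple {p q r : X → X} (hp : Measurable p) (hq : Measurable q) (hr : Measurable r) :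
    Measurable (fun a => (p a, q a, r a)) := hp.prodMk (hq.prodMk hr)

theorem tri_map1 {ν : Measure X} {p q r : X → X} (hp : Measurable p) (hq : Measurable q)
    (hr : Measurable r) : (tri ν p q r).map (fun t => t.1) = ν.map p := by
  unfold tri
  rw [Measure.map_map measurable_fst (meas_triple hp hq hr)]
  rfl

theorem tri_map2 {ν : Measure X} {p q r : X → X} (hp : Measurable p) (hq : Measurable q)
    (hr : Measurable r) : (tri ν p q r).map (fun t => t.2.1) = ν.map q := by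
  unfold tri
  rw [Measure.map_map (show Measurable (fun t : X × X × X => t.2.1) from
    measurable_fst.comp measurable_snd) (meas_triple hp hq hr)]
  rfl

theorem tri_map3 {ν : Measure X} {p q r : X → X} (hp : Measurable p) (hq : Measurable q)
    (hr : Measurable r) : (tri ν p q r).map (fun t => t.2.2) = ν.map r := by
  unfold tri
  rw [Measure.map_map (show Measurable (fun t : X × X × X => t.2.2) from
    measurable_snd.comp measurable_snd) (meas_triple hp hq hr)]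
  rfl

theorem cyc_map1 {ν : Measure X} {p q r : X → X} (hp : Measurable p) (hq : Measurable q)
    (hr : Measurable r) : (cyc ν p q r).map (fun t => t.1) = sum3 ν p q r := by
  unfold cyc sum3
  rw [Measure.map_add _ _ measurable_fst, Measure.map_add _ _ measurable_fst,
    tri_map1 hp hq hr, tri_map1 hq hr hp, tri_map1 hr hp hq]

theorem cyc_map2 {ν : Measure X} {p q r : X → X} (hp : Measurable p) (hq : Measurable q)
    (hr : Measurable r) : (cyc ν p q r).map (fun t => t.2.1) = sum3 ν p q r := by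
  unfold cyc sum3
  have m2 : Measurable (fun p : X × X × X => p.2.1) := measurable_fst.comp measurable_snd
  rw [Measure.map_add _ _ m2, Measure.map_add _ _ m2,
    tri_map2 hp hq hr, tri_map2 hq hr hp, tri_map2 hr hp hq]
  abel

theorem cyc_map3 {ν : Measure X} {p q r : X → X} (hp : Measurable p) (hq : Measurable q)
    (hr : Measurable r) : (cyc ν p q r).map (fun t => t.2.2) = sum3 ν p q r := by
  unfold cyc sum3
  have m3 : Measurable (fun p : X × X × X => p.2.2) := measurable_snd.comp measurable_snd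
  rw [Measure.map_add _ _ m3, Measure.map_add _ _ m3,
    tri_map3 hp hq hr, tri_map3 hq hr hp, tri_map3 hr hp hq]
  abel

theorem lintegral_sum3 {ν : Measure X} {p q r : X → X} (hp : Measurable p) (hq : Measurable q)
    (hr : Measurable r) {F : X → ℝ≥0∞} (hF : Measurable F) :
    ∫⁻ x, F x ∂(sum3 ν p q r) = ∫⁻ a, F (p a) ∂ν + ∫⁻ a, F (q a) ∂ν + ∫⁻ a, F (r a) ∂ν := by
  unfold sum3
  rw [lintegral_add_measure, lintegral_add_measure, lintegral_map hF hp, lintegral_map hF hq,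
    lintegral_map hF hr]

theorem lintegral_cyc {κ : X → X → X → ℝ≥0∞}
    (hκ : Measurable (fun t : X × X × X => κ t.1 t.2.1 t.2.2))
    (hcyc : ∀ x y z, κ y z x = κ x y z)
    {ν : Measure X} {p q r : X → X} (hp : Measurable p) (hq : Measurable q)
    (hr : Measurable r) {u : X → ℝ≥0∞} (hu : Measurable u)
    (hc : ∀ᵐ a ∂ν, u (p a) + u (q a) + u (r a) = κ (p a) (q a) (r a)) :
    ∫⁻ t, κ t.1 t.2.1 t.2.2 ∂(cyc ν p q r) = 3 * ∫⁻ x, u x ∂(sum3 ν p q r) := by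
  have base : ∫⁻ a, κ (p a) (q a) (r a) ∂ν = ∫⁻ x, u x ∂(sum3 ν p q r) := by
    rw [lintegral_sum3 hp hq hr hu, ← lintegral_add3 (f := fun a => u (p a))
      (g := fun a => u (q a)) (hu.comp hp) (hu.comp hq)]
    apply lintegral_congr_ae
    filter_upwards [hc] with a ha
    exact ha.symm
  unfold cyc tri
  rw [lintegral_add_measure, lintegral_add_measure, lintegral_map hκ (meas_triple hp hq hr),
    lintegral_map hκ (meas_triple hq hr hp), lintegral_map hκ (meas_triple hr hp hq)]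
  simp only [hcyc]
  rw [base]
  ring

/-- the marginal measure built from two triples of maps -/
noncomputable def mu6 (ν : Measure X) (p q r p' q' r' : X → X) : Measure X :=
  (6:ℝ≥0∞)⁻¹ • (sum3 ν p q r + sum3 ν p' q' r')

noncomputable def pi6 (ν : Measure X) (p q r p' q' r' : X → X) : Measure (X × X × X) :=
  (6:ℝ≥0∞)⁻¹ • (cyc ν p q r + cyc ν p' q' r')

theorem pi6_cpl {ν : Measure X} {p q r p' q' r' : X → X} (hp : Measurable p) (hq : Measurable q)
    (hr : Measurable r) (hp' : Measurable p') (hq' : Measurable q') (hr' : Measurable r') :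
    IsCpl (mu6 ν p q r p' q' r') (pi6 ν p q r p' q' r') := by
  have m1 : Measurable (fun p : X × X × X => p.1) := measurable_fst
  have m2 : Measurable (fun p : X × X × X => p.2.1) := measurable_fst.comp measurable_snd
  have m3 : Measurable (fun p : X × X × X => p.2.2) := measurable_snd.comp measurable_snd
  unfold IsCpl mu6 pi6
  refine ⟨?_, ?_, ?_⟩
  · rw [Measure.map_smul, Measure.map_add _ _ m1, cyc_map1 hp hq hr, cyc_map1 hp' hq' hr']
  · rw [Measure.map_smul, Measure.map_add _ _ m2, cyc_map2 hp hq hr, cyc_map2 hp' hq' hr']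
  · rw [Measure.map_smul, Measure.map_add _ _ m3, cyc_map3 hp hq hr, cyc_map3 hp' hq' hr']

theorem lintegral_mu6 {ν : Measure X} {p q r p' q' r' : X → X} (hp : Measurable p)
    (hq : Measurable q) (hr : Measurable r) (hp' : Measurable p') (hq' : Measurable q')
    (hr' : Measurable r') {F : X → ℝ≥0∞} (hF : Measurable F) :
    ∫⁻ x, F x ∂(mu6 ν p q r p' q' r') = (6:ℝ≥0∞)⁻¹ *
      ((∫⁻ a, F (p a) ∂ν + ∫⁻ a, F (q a) ∂ν + ∫⁻ a, F (r a) ∂ν)
        + (∫⁻ a, F (p' a) ∂ν + ∫⁻ a, F (q' a) ∂ν + ∫⁻ a, F (r' a) ∂ν)) := by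
  unfold mu6
  rw [lintegral_smul_measure, lintegral_add_measure, lintegral_sum3 hp hq hr hF,
    lintegral_sum3 hp' hq' hr' hF]
  rfl

theorem ae_mu6 {ν : Measure X} {p q r p' q' r' : X → X} (hp : Measurable p)
    (hq : Measurable q) (hr : Measurable r) (hp' : Measurable p') (hq' : Measurable q')
    (hr' : Measurable r') {P : X → Prop} (h : ∀ᵐ x ∂(mu6 ν p q r p' q' r'), P x) :
    (∀ᵐ a ∂ν, P (p a)) ∧ (∀ᵐ a ∂ν, P (q a)) ∧ (∀ᵐ a ∂ν, P (r a)) ∧
      (∀ᵐ a ∂ν, P (p' a)) ∧ (∀ᵐ a ∂ν, P (q' a)) ∧ (∀ᵐ a ∂ν, P (r' a)) := by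
  unfold mu6 sum3 at h
  rw [Measure.ae_ennreal_smul_measure_iff (by simp)] at h
  simp only [ae_add_measure_iff] at h
  obtain ⟨⟨⟨h1, h2⟩, h3⟩, ⟨h4, h5⟩, h6⟩ := h
  exact ⟨ae_of_ae_map hp.aemeasurable h1, ae_of_ae_map hq.aemeasurable h2,
    ae_of_ae_map hr.aemeasurable h3, ae_of_ae_map hp'.aemeasurable h4,
    ae_of_ae_map hq'.aemeasurable h5, ae_of_ae_map hr'.aemeasurable h6⟩

theorem ae_mu6_of {ν : Measure X} {p q r p' q' r' : X → X} (hp : Measurable p)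
    (hq : Measurable q) (hr : Measurable r) (hp' : Measurable p') (hq' : Measurable q')
    (hr' : Measurable r') {S : Set X} (hS : MeasurableSet S)
    (h1 : ∀ᵐ a ∂ν, p a ∈ S) (h2 : ∀ᵐ a ∂ν, q a ∈ S) (h3 : ∀ᵐ a ∂ν, r a ∈ S)
    (h4 : ∀ᵐ a ∂ν, p' a ∈ S) (h5 : ∀ᵐ a ∂ν, q' a ∈ S) (h6 : ∀ᵐ a ∂ν, r' a ∈ S) :
    ∀ᵐ x ∂(mu6 ν p q r p' q' r'), x ∈ S := by
  unfold mu6 sum3
  rw [Measure.ae_ennreal_smul_measure_iff (by simp)]
  simp only [ae_add_measure_iff]
  exact ⟨⟨⟨(ae_map_iff hp.aemeasurable hS).mpr h1, (ae_map_iff hq.aemeasurable hS).mpr h2⟩,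
    (ae_map_iff hr.aemeasurable hS).mpr h3⟩, ⟨(ae_map_iff hp'.aemeasurable hS).mpr h4,
    (ae_map_iff hq'.aemeasurable hS).mpr h5⟩, (ae_map_iff hr'.aemeasurable hS).mpr h6⟩

theorem kant_eq {κ : X → X → X → ℝ≥0∞}
    (hκ : Measurable (fun t : X × X × X => κ t.1 t.2.1 t.2.2))
    (hcyc : ∀ x y z, κ y z x = κ x y z)
    {ν : Measure X} {p q r p' q' r' : X → X} (hp : Measurable p)
    (hq : Measurable q) (hr : Measurable r) (hp' : Measurable p') (hq' : Measurable q')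
    (hr' : Measurable r') {u : X → ℝ≥0∞} (hu : Measurable u)
    {W : Set X} (hW : ∀ᵐ x ∂(mu6 ν p q r p' q' r'), x ∈ W)
    (hle : ∀ x ∈ W, ∀ y ∈ W, ∀ z ∈ W, u x + u y + u z ≤ κ x y z)
    (hc : ∀ᵐ a ∂ν, u (p a) + u (q a) + u (r a) = κ (p a) (q a) (r a))
    (hc' : ∀ᵐ a ∂ν, u (p' a) + u (q' a) + u (r' a) = κ (p' a) (q' a) (r' a)) :
    kant κ (mu6 ν p q r p' q' r') = 3 * ∫⁻ x, u x ∂(mu6 ν p q r p' q' r') := by
  apply le_antisymm
  · unfold kant
    refine iInf₂_le_of_le (pi6 ν p q r p' q' r') (pi6_cpl hp hq hr hp' hq' hr') ?_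
    unfold pi6 mu6
    rw [lintegral_smul_measure, lintegral_add_measure, lintegral_cyc hκ hcyc hp hq hr hu hc,
      lintegral_cyc hκ hcyc hp' hq' hr' hu hc', lintegral_smul_measure, lintegral_add_measure]
    apply le_of_eq
    simp only [smul_eq_mul]
    ring
  · unfold kant
    exact le_iInf₂ fun π hπ => weak_duality hu hW hle hπ

theorem monge_contact {κ : X → X → X → ℝ≥0∞}
    (hκ : Measurable (fun t : X × X × X => κ t.1 t.2.1 t.2.2))
    {μ : Measure X} {u : X → ℝ≥0∞} (hu : Measurable u)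
    {W : Set X} (hW : ∀ᵐ x ∂μ, x ∈ W)
    (hle : ∀ x ∈ W, ∀ y ∈ W, ∀ z ∈ W, u x + u y + u z ≤ κ x y z)
    (hfin : ∫⁻ x, u x ∂μ ≠ ∞)
    {T₂ T₃ : X → X} (h2 : Measurable T₂) (h3 : Measurable T₃) (m2 : μ.map T₂ = μ)
    (m3 : μ.map T₃ = μ) (hcost : ∫⁻ x, κ x (T₂ x) (T₃ x) ∂μ = 3 * ∫⁻ x, u x ∂μ) :
    ∀ᵐ x ∂μ, x ∈ W ∧ T₂ x ∈ W ∧ T₃ x ∈ W ∧ u x + u (T₂ x) + u (T₃ x) = κ x (T₂ x) (T₃ x) := by
  have w2 : ∀ᵐ x ∂μ, T₂ x ∈ W := ae_of_ae_map h2.aemeasurable (by rw [m2]; exact hW)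
  have w3 : ∀ᵐ x ∂μ, T₃ x ∈ W := ae_of_ae_map h3.aemeasurable (by rw [m3]; exact hW)
  have i2 : ∫⁻ x, u (T₂ x) ∂μ = ∫⁻ x, u x ∂μ := by
    conv_rhs => rw [← m2]
    rw [lintegral_map hu h2]
  have i3 : ∫⁻ x, u (T₃ x) ∂μ = ∫⁻ x, u x ∂μ := by
    conv_rhs => rw [← m3]
    rw [lintegral_map hu h3]
  have isum : ∫⁻ x, (u x + u (T₂ x) + u (T₃ x)) ∂μ = 3 * ∫⁻ x, u x ∂μ := by
    rw [lintegral_add3 (f := u) (g := fun x => u (T₂ x)) hu (hu.comp h2), i2, i3]
    ring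
  have hle' : (fun x => u x + u (T₂ x) + u (T₃ x)) ≤ᵐ[μ] fun x => κ x (T₂ x) (T₃ x) := by
    filter_upwards [hW, w2, w3] with x x1 x2 x3
    exact hle _ x1 _ x2 _ x3
  have hmeas : Measurable fun x => κ x (T₂ x) (T₃ x) :=
    hκ.comp (meas_triple measurable_id h2 h3)
  have heq := ae_eq_of_ae_le_of_lintegral_le hle' (by
    rw [isum]
    exact ENNReal.mul_ne_top (by norm_num) hfin) hmeas.aemeasurable (by rw [isum, hcost])
  filter_upwards [hW, w2, w3, heq] with x x1 x2 x3 x4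
  exact ⟨x1, x2, x3, x4⟩

end Vale.Agent.P121
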