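import Vale.Agent.P121.Main

namespace Vale.Agent.P121

open MeasureTheory
open scoped RealInnerProductSpace ENNReal

variable {V : Type*} [NormedAddCommGroup V] [InnerProductSpace ℝ V]

theorem exists_data [CompleteSpace V] (e1 e2 : V) (he1 : ‖e1‖ = 1) (he2 : ‖e2‖ = 1)
    (horth : ⟪e1, e2⟫ = 0) : Nonempty (Data V) := by
  classical
  have hsol : ∀ a : V, ∃ p : V × V, (‖a‖ ≤ 1/10000 → IsConfig e1 a p.1 p.2) ∧
      (¬ ‖a‖ ≤ 1/10000 → p.1 = e1 ∧ p.2 = -e1) := by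
    intro a
    by_cases ha : ‖a‖ ≤ 1/10000
    · obtain ⟨b, c, h1, h2, h3, h4⟩ := exists_solution he1 ha
      exact ⟨(b, c), fun _ => ⟨ha, h3, h4, h1, h2⟩, fun h => absurd ha h⟩
    · exact ⟨(e1, -e1), fun h => absurd h ha, fun _ => ⟨rfl, rfl⟩⟩
  choose p hp using hsol
  exact ⟨{
    e1 := e1
    e2 := e2
    g := Submodule.reflection (ℝ ∙ (e1 - e2))ᗮ
    b := fun a => (p a).1
    c := fun a => (p a).2
    he1 := he1
    he2 := he2
    horth := horth
    hg1 := Submodule.reflection_sub (by rw [he1, he2])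
    hgg := fun x => Submodule.reflection_reflection _ x
    hcfg := fun a ha => (hp a).1 ha
    hbo := fun a ha => ((hp a).2 ha).1
    hco := fun a ha => ((hp a).2 ha).2 }⟩

theorem main_R3 : ∃ μ : Measure (EuclideanSpace ℝ (Fin 3)), IsProbabilityMeasure μ ∧ μ ≪ volume ∧
    kant coul μ < ⊤ ∧
    ¬ ∃ T₂ T₃ : EuclideanSpace ℝ (Fin 3) → EuclideanSpace ℝ (Fin 3),
      Measurable T₂ ∧ Measurable T₃ ∧ μ.map T₂ = μ ∧ μ.map T₃ = μ ∧
      ∫⁻ x, coul x (T₂ x) (T₃ x) ∂μ = kant coul μ := by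
  obtain ⟨D⟩ := exists_data (V := EuclideanSpace ℝ (Fin 3)) (EuclideanSpace.single 0 1)
    (EuclideanSpace.single 1 1) (by simp) (by simp)
    (by rw [EuclideanSpace.inner_single_left]; simp)
  exact D.main

end Vale.Agent.P121
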