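import Vale.Agent.P121.Dual

namespace Vale.Agent.P121

open scoped RealInnerProductSpace ENNReal

variable {V : Type*} [NormedAddCommGroup V] [InnerProductSpace ℝ V]

namespace Data

variable (D : Data V)

/-- the contact relation -/
def R (x y z : V) : Prop :=
  x ∈ D.W ∧ y ∈ D.W ∧ z ∈ D.W ∧ D.ub x + D.ub y + D.ub z = coul x y z

theorem good_of_R {i j k : Fin 5} {x y z : V} (hi : x ∈ D.Piece i) (hj : y ∈ D.Piece j)
    (hk : z ∈ D.Piece k) (h : D.ub x + D.ub y + D.ub z = coul x y z) : GoodT i j k := by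
  by_contra hng
  exact (D.strict hi hj hk hng).ne h

theorem G1 {a y z : V} (ha : a ∈ (AA : Set V)) (h : D.R a y z) :
    (y = D.b a ∧ z = D.c a) ∨ (y = D.c a ∧ z = D.b a) ∨ (y ∉ D.c '' AA ∧ z ∉ D.c '' AA) := by
  obtain ⟨-, ⟨j, hj⟩, ⟨k, hk⟩, heq⟩ := h
  have h0 : a ∈ D.Piece 0 := ha
  rcases goodT0 j k (D.good_of_R h0 hj hk heq) with ⟨rfl, rfl⟩ | ⟨rfl, rfl⟩ | ⟨rfl, rfl⟩ | ⟨rfl, rfl⟩
  · exact Or.inl ((D.good1 ha hj hk).2 heq)
  · have heq' : D.ub a + D.ub z + D.ub y = coul a z y := by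
      rw [coul_swap23, add_right_comm]
      exact heq
    have := (D.good1 ha hk hj).2 heq'
    exact Or.inr (Or.inl ⟨this.2, this.1⟩)
  · exact Or.inr (Or.inr ⟨D.notMem (j := 2) hj (by decide), D.notMem (j := 2) hk (by decide)⟩)
  · exact Or.inr (Or.inr ⟨D.notMem (j := 2) hj (by decide), D.notMem (j := 2) hk (by decide)⟩)

theorem G2 {a y z : V} (ha : a ∈ (AA : Set V)) (h : D.R (D.b a) y z) :
    (y = a ∧ z = D.c a) ∨ (y = D.c a ∧ z = a) := by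
  obtain ⟨-, ⟨j, hj⟩, ⟨k, hk⟩, heq⟩ := h
  have h1 : D.b a ∈ D.Piece 1 := ⟨a, ha, rfl⟩
  rcases goodT1 j k (D.good_of_R h1 hj hk heq) with ⟨rfl, rfl⟩ | ⟨rfl, rfl⟩
  · have heq' : D.ub y + D.ub (D.b a) + D.ub z = coul y (D.b a) z := by
      rw [coul_swap12, add_comm (D.ub y)]
      exact heq
    have := (D.good1 hj h1 hk).2 heq'
    have e : a = y := D.injOn_b ha hj this.1
    subst e
    exact Or.inl ⟨rfl, this.2⟩
  · have heq' : D.ub z + D.ub (D.b a) + D.ub y = coul z (D.b a) y := by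
      rw [coul_swap12, coul_swap23, add_comm (D.ub z), add_right_comm]
      exact heq
    have := (D.good1 hk h1 hj).2 heq'
    have e : a = z := D.injOn_b ha hk this.1
    subst e
    exact Or.inr ⟨this.2, rfl⟩

theorem G3 {i : Fin 5} (hi2 : i = 2 ∨ i = 3 ∨ i = 4) {x y z : V} (hi : x ∈ D.Piece i)
    (h : D.R x y z) : y ∉ D.c '' AA ∧ z ∉ D.c '' AA := by
  obtain ⟨-, ⟨j, hj⟩, ⟨k, hk⟩, heq⟩ := h
  obtain ⟨n1, n2⟩ := goodT234 i j k (D.good_of_R hi hj hk heq) hi2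
  exact ⟨D.notMem (j := 2) hj n1, D.notMem (j := 2) hk n2⟩

theorem mem0 {a : V} (ha : a ∈ (AA : Set V)) : a ∈ D.Piece 0 := ha
theorem mem1 {a : V} (ha : a ∈ (AA : Set V)) : D.b a ∈ D.Piece 1 := ⟨a, ha, rfl⟩
theorem mem2 {a : V} (ha : a ∈ (AA : Set V)) : D.c a ∈ D.Piece 2 := ⟨a, ha, rfl⟩
theorem mem0' {a : V} (ha : a ∈ (AA : Set V)) : D.g a ∈ D.Piece 0 := D.g_mem_AA.mpr ha
theorem mem3 {a : V} (ha : a ∈ (AA : Set V)) : D.g (D.b a) ∈ D.Piece 3 :=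
  ⟨a, ha, (D.hgg _).symm⟩
theorem mem4 {a : V} (ha : a ∈ (AA : Set V)) : D.g (D.c a) ∈ D.Piece 4 :=
  ⟨a, ha, (D.hgg _).symm⟩

theorem contact1 {a : V} (ha : a ∈ (AA : Set V)) :
    D.ub a + D.ub (D.b a) + D.ub (D.c a) = coul a (D.b a) (D.c a) := by
  have h0 := D.mem0 ha
  have h1 := D.mem1 ha
  have h2 := D.mem2 ha
  rw [D.ub_add h0 h1 h2, coul_eq_ofReal (D.ne_of_pieces h0 h1 (by decide))
    (D.ne_of_pieces h0 h2 (by decide)) (D.ne_of_pieces h1 h2 (by decide)),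
    D.u_eq0 ha, D.u_b ha, D.u_c ha]
  unfold uBval
  congr 1
  ring

theorem contact2 {a : V} (ha : a ∈ (AA : Set V)) :
    D.ub (D.g a) + D.ub (D.g (D.b a)) + D.ub (D.g (D.c a))
      = coul (D.g a) (D.g (D.b a)) (D.g (D.c a)) := by
  rw [D.ub_g, D.ub_g, D.ub_g, D.coul_g]
  exact D.contact1 ha

theorem ub_le (x : V) : D.ub x ≤ 2 := by
  by_cases h : x ∈ D.W
  · obtain ⟨i, hi⟩ := h
    have h2 := (D.u_bounds hi).2
    have h3 : (UN i : ℝ) / 1000 ≤ 2 := by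
      fin_cases i <;> norm_num [UN]
    unfold ub
    calc ENNReal.ofReal (D.u x) ≤ ENNReal.ofReal 2 := ENNReal.ofReal_le_ofReal (h2.trans h3)
      _ = 2 := by simp
  · have h0 : x ∉ (AA : Set V) := fun hx => h ⟨0, hx⟩
    have h1 : x ∉ D.P1 := fun hx => h ⟨1, hx⟩
    have h2 : x ∉ D.P2 := fun hx => h ⟨2, hx⟩
    have h3 : D.g x ∉ D.P1 := fun hx => h ⟨3, hx⟩
    have h4 : D.g x ∉ D.P2 := fun hx => h ⟨4, hx⟩
    unfold ub u
    rw [Set.indicator_of_notMem h0, Set.indicator_of_notMem h1, Set.indicator_of_notMem h2,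
      Set.indicator_of_notMem h3, Set.indicator_of_notMem h4]
    simp

end Data

end Vale.Agent.P121
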