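import Vale.Agent.P121.Solve

namespace Vale.Agent.P121

open scoped RealInnerProductSpace

variable {V : Type*} [NormedAddCommGroup V] [InnerProductSpace ℝ V]

/-- A critical configuration: `a` near `0`, `b` near `e`, `c` near `-e`, with the two first order
conditions (in the variables `a` and `c`). -/
structure IsConfig (e a b c : V) : Prop where
  ha : ‖a‖ ≤ 1/10000
  hb : ‖b - e‖ ≤ 3/200
  hc : ‖c + e‖ ≤ 1/1000
  focA : (100:ℝ) • a + EF (a - b) + EF (a - c) = 0
  focC : EF (c - a) + EF (c - b) = (5/4:ℝ) • e - (10:ℝ) • (c + e)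

theorem norm_bounds {x p : V} {r : ℝ} (h : ‖x - p‖ ≤ r) : ‖p‖ - r ≤ ‖x‖ ∧ ‖x‖ ≤ ‖p‖ + r := by
  constructor
  · have := norm_sub_le x (x - p)
    rw [sub_sub_cancel] at this
    linarith
  · have := norm_add_le p (x - p)
    rw [add_sub_cancel] at this
    linarith

namespace IsConfig

variable {e a b c a' b' c' : V}

theorem ab (he : ‖e‖ = 1) (h : IsConfig e a b c) : 98/100 ≤ ‖a - b‖ ∧ ‖a - b‖ ≤ 102/100 := by
  have h1 : ‖(a - b) - (-e)‖ ≤ 151/10000 := by
    have : (a - b) - (-e) = a - (b - e) := by abel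
    rw [this]
    have := norm_sub_le a (b - e)
    have := h.ha
    have := h.hb
    linarith
  have := norm_bounds h1
  rw [norm_neg, he] at this
  constructor <;> linarith [this.1, this.2]

theorem ac (he : ‖e‖ = 1) (h : IsConfig e a b c) : 99/100 ≤ ‖a - c‖ ∧ ‖a - c‖ ≤ 101/100 := by
  have h1 : ‖(a - c) - e‖ ≤ 11/10000 := by
    have : (a - c) - e = a - (c + e) := by abel
    rw [this]
    have := norm_sub_le a (c + e)
    have := h.ha
    have := h.hc
    linarith
  have := norm_bounds h1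
  rw [he] at this
  constructor <;> linarith [this.1, this.2]

theorem cb (he : ‖e‖ = 1) (h : IsConfig e a b c) : 198/100 ≤ ‖c - b‖ ∧ ‖c - b‖ ≤ 202/100 := by
  have h1 : ‖(c - b) - (-((2:ℝ) • e))‖ ≤ 16/1000 := by
    have : (c - b) - (-((2:ℝ) • e)) = (c + e) - (b - e) := by
      rw [two_smul]
      abel
    rw [this]
    have := norm_sub_le (c + e) (b - e)
    have := h.hc
    have := h.hb
    linarith
  have := norm_bounds h1
  rw [norm_neg, norm_smul, he] at this
  norm_num at this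
  constructor <;> linarith [this.1, this.2]

theorem estimates (he : ‖e‖ = 1) (h : IsConfig e a b c) (h' : IsConfig e a' b' c') :
    ‖c - c'‖ ≤ 6 * ‖a - a'‖ ∧ ‖b - b'‖ ≤ 130 * ‖a - a'‖ ∧ ‖a - a'‖ ≤ 1/40 * ‖b - b'‖ ∧
      ‖a - a'‖ ≤ 5 * ‖c - c'‖ := by
  have hab := h.ab he
  have hab' := h'.ab he
  have hac := h.ac he
  have hac' := h'.ac he
  have hcb := h.cb he
  have hcb' := h'.cb he
  have ne : ∀ {w : V} {t : ℝ}, 0 < t → t ≤ ‖w‖ → w ≠ 0 := by
    intro w t ht hw h0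
    rw [h0, norm_zero] at hw
    linarith
  -- Lipschitz bounds
  have l1 := EF_lipschitz (d := 98/100) (by norm_num) hab.1 hab'.1
  have l2 := EF_lipschitz (d := 99/100) (by norm_num) hac.1 hac'.1
  have l3 := EF_lipschitz (d := 198/100) (by norm_num) hcb.1 hcb'.1
  have m1 := EF_antilipschitz (D := 102/100) (ne (by norm_num) hab.1) (ne (by norm_num) hab'.1)
    hab.2 hab'.2
  have m3 := EF_antilipschitz (D := 202/100) (ne (by norm_num) hcb.1) (ne (by norm_num) hcb'.1)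
    hcb.2 hcb'.2
  set x1 := ‖EF (a - b) - EF (a' - b')‖
  set x2 := ‖EF (a - c) - EF (a' - c')‖
  set x3 := ‖EF (c - b) - EF (c' - b')‖
  set pab := ‖a - b - (a' - b')‖
  set pac := ‖a - c - (a' - c')‖
  set pcb := ‖c - b - (c' - b')‖
  set da := ‖a - a'‖
  set db := ‖b - b'‖
  set dc := ‖c - c'‖
  have hx2 : ‖EF (c - a) - EF (c' - a')‖ = x2 := by
    have e1 : c - a = -(a - c) := by abel
    have e2 : c' - a' = -(a' - c') := by abel
    rw [e1, e2, EF_neg, EF_neg, ← neg_sub', norm_neg]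
  -- FOC differences
  have fA : (100:ℝ) • (a - a') = -(EF (a - b) - EF (a' - b')) - (EF (a - c) - EF (a' - c')) := by
    have := h.focA
    have := h'.focA
    have e3 : (100:ℝ) • (a - a') = ((100:ℝ) • a + EF (a - b) + EF (a - c))
        - ((100:ℝ) • a' + EF (a' - b') + EF (a' - c'))
        + (-(EF (a - b) - EF (a' - b')) - (EF (a - c) - EF (a' - c'))) := by
      rw [smul_sub]
      abel
    rw [e3, h.focA, h'.focA]
    abel
  have fC : (10:ℝ) • (c - c') = -(EF (c - a) - EF (c' - a')) - (EF (c - b) - EF (c' - b')) := by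
    have e3 : (10:ℝ) • (c - c') = ((EF (c - a) + EF (c - b)) - ((5/4:ℝ) • e - (10:ℝ) • (c + e)))
        - ((EF (c' - a') + EF (c' - b')) - ((5/4:ℝ) • e - (10:ℝ) • (c' + e)))
        + (-(EF (c - a) - EF (c' - a')) - (EF (c - b) - EF (c' - b'))) := by
      module
    rw [e3, h.focC, h'.focC]
    abel
  have nA : ‖(100:ℝ) • (a - a')‖ = 100 * da := by
    rw [norm_smul, Real.norm_of_nonneg (by norm_num)]
  have nC : ‖(10:ℝ) • (c - c')‖ = 10 * dc := by
    rw [norm_smul, Real.norm_of_nonneg (by norm_num)]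
  have a1 : 100 * da ≤ x1 + x2 := by
    rw [← nA, fA]
    have := norm_sub_le (-(EF (a - b) - EF (a' - b'))) (EF (a - c) - EF (a' - c'))
    rwa [norm_neg] at this
  have a2 : x1 ≤ 100 * da + x2 := by
    have e4 : EF (a - b) - EF (a' - b') = -((100:ℝ) • (a - a')) - (EF (a - c) - EF (a' - c')) := by
      rw [fA]
      abel
    have := norm_sub_le (-((100:ℝ) • (a - a'))) (EF (a - c) - EF (a' - c'))
    rw [norm_neg, nA, ← e4] at this
    exact this
  have c1 : 10 * dc ≤ x2 + x3 := by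
    rw [← nC, fC]
    have := norm_sub_le (-(EF (c - a) - EF (c' - a'))) (EF (c - b) - EF (c' - b'))
    rwa [norm_neg, hx2] at this
  have c2 : x3 ≤ 10 * dc + x2 := by
    have e4 : EF (c - b) - EF (c' - b') = -((10:ℝ) • (c - c')) - (EF (c - a) - EF (c' - a')) := by
      rw [fC]
      abel
    have := norm_sub_le (-((10:ℝ) • (c - c'))) (EF (c - a) - EF (c' - a'))
    rw [norm_neg, nC, ← e4, hx2] at this
    exact this
  -- triangle inequalities
  have t1 : pab ≤ da + db := by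
    have e5 : a - b - (a' - b') = (a - a') - (b - b') := by abel
    have := norm_sub_le (a - a') (b - b')
    rwa [← e5] at this
  have t2 : db ≤ da + pab := by
    have e5 : b - b' = (a - a') - (a - b - (a' - b')) := by abel
    have := norm_sub_le (a - a') (a - b - (a' - b'))
    rwa [← e5] at this
  have t3 : pac ≤ da + dc := by
    have e5 : a - c - (a' - c') = (a - a') - (c - c') := by abel
    have := norm_sub_le (a - a') (c - c')
    rwa [← e5] at this
  have t4 : pcb ≤ dc + db := by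
    have e5 : c - b - (c' - b') = (c - c') - (b - b') := by abel
    have := norm_sub_le (c - c') (b - b')
    rwa [← e5] at this
  have t5 : db ≤ dc + pcb := by
    have e5 : b - b' = (c - c') - (c - b - (c' - b')) := by abel
    have := norm_sub_le (c - c') (c - b - (c' - b'))
    rwa [← e5] at this
  have p1 : 0 ≤ pab := norm_nonneg _
  have p2 : 0 ≤ pac := norm_nonneg _
  have p3 : 0 ≤ pcb := norm_nonneg _
  have p4 : 0 ≤ x1 := norm_nonneg _
  have p5 : 0 ≤ x3 := norm_nonneg _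
  have L1 : x1 ≤ 22/10 * pab := by
    refine l1.trans (mul_le_mul_of_nonneg_right (by norm_num) p1)
  have L2 : x2 ≤ 22/10 * pac := by
    refine l2.trans (mul_le_mul_of_nonneg_right (by norm_num) p2)
  have L3 : x3 ≤ 26/100 * pcb := by
    refine l3.trans (mul_le_mul_of_nonneg_right (by norm_num) p3)
  have M1 : pab ≤ 107/100 * x1 := by
    refine m1.trans (mul_le_mul_of_nonneg_right (by norm_num) p4)
  have M3 : pcb ≤ 83/10 * x3 := by
    refine m3.trans (mul_le_mul_of_nonneg_right (by norm_num) p5)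
  refine ⟨by linarith, by linarith, by linarith, by linarith⟩

end IsConfig

/-- the real valued Coulomb cost -/
noncomputable def cR (x y z : V) : ℝ := ‖x - y‖⁻¹ + ‖x - z‖⁻¹ + ‖y - z‖⁻¹

noncomputable def uA (a : V) : ℝ := 3/2 - 50 * ‖a‖ ^ 2

noncomputable def uC (e z : V) : ℝ := 1/2 + ⟪(5/4:ℝ) • e, z + e⟫ - 5 * ‖z + e‖ ^ 2

theorem good_ineq {e a b c x z : V} (he : ‖e‖ = 1) (h : IsConfig e a b c) (hxb : x ≠ b)
    (hxz : x ≠ z) (hzb : z ≠ b) :
    (cR a b c - uA a - uC e c) + uA x + uC e z + (40 * ‖x - a‖ ^ 2 + 3 * ‖z - c‖ ^ 2) ≤ cR x b z := by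
  have hab := h.ab he
  have hac := h.ac he
  have hcb := h.cb he
  have ne : ∀ {w : V} {t : ℝ}, 0 < t → t ≤ ‖w‖ → w ≠ 0 := by
    intro w t ht hw h0
    rw [h0, norm_zero] at hw
    linarith
  have T1 := tangent_paraboloid (z := a - b) (z' := x - b) (ne (by norm_num) hab.1) (sub_ne_zero.mpr hxb)
  have T2 := tangent_paraboloid (z := a - c) (z' := x - z) (ne (by norm_num) hac.1) (sub_ne_zero.mpr hxz)
  have T3 := tangent_paraboloid (z := c - b) (z' := z - b) (ne (by norm_num) hcb.1) (sub_ne_zero.mpr hzb)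
  have d1 : x - b - (a - b) = x - a := by abel
  have d2 : x - z - (a - c) = (x - a) - (z - c) := by abel
  have d3 : z - b - (c - b) = z - c := by abel
  rw [d1] at T1
  rw [d2] at T2
  rw [d3] at T3
  set δa := x - a
  set δc := z - c
  -- inner products from the first order conditions
  have fA : ⟪EF (a - b), δa⟫ + ⟪EF (a - c), δa⟫ = -(100 * ⟪a, δa⟫) := by
    have : EF (a - b) + EF (a - c) = -((100:ℝ) • a) := by
      have := h.focA
      rw [add_assoc] at this
      exact (neg_eq_of_add_eq_zero_right this).symm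
    rw [← inner_add_left, this, inner_neg_left, inner_smul_left]
    simp
  have fC : -⟪EF (a - c), δc⟫ + ⟪EF (c - b), δc⟫ = 5/4 * ⟪e, δc⟫ - 10 * ⟪c + e, δc⟫ := by
    have e1 : c - a = -(a - c) := by abel
    have := h.focC
    rw [e1, EF_neg] at this
    rw [← inner_neg_left, ← inner_add_left, this, inner_sub_left, inner_smul_left, inner_smul_left]
    simp
  have i2 : ⟪EF (a - c), δa - δc⟫ = ⟪EF (a - c), δa⟫ - ⟪EF (a - c), δc⟫ := inner_sub_right _ _ _
  -- expansions of the quadratic potentials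
  have qA : ‖x‖ ^ 2 = ‖a‖ ^ 2 + 2 * ⟪a, δa⟫ + ‖δa‖ ^ 2 := by
    have : x = a + δa := by simp [δa]
    rw [this, norm_add_sq_real]
  have qC : ‖z + e‖ ^ 2 = ‖c + e‖ ^ 2 + 2 * ⟪c + e, δc⟫ + ‖δc‖ ^ 2 := by
    have : z + e = (c + e) + δc := by simp only [δc]; abel
    rw [this, norm_add_sq_real]
  have lC : ⟪(5/4:ℝ) • e, z + e⟫ = ⟪(5/4:ℝ) • e, c + e⟫ + 5/4 * ⟪e, δc⟫ := by
    have : z + e = (c + e) + δc := by simp only [δc]; abel
    rw [this, inner_add_right, inner_smul_left (𝕜 := ℝ) e δc]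
    simp
  -- bounds on the quadratic error terms
  have b1 : ‖δa‖ ^ 2 / (2 * ‖a - b‖ ^ 3) ≤ 54/100 * ‖δa‖ ^ 2 := by
    have h3 : (98/100:ℝ) ^ 3 ≤ ‖a - b‖ ^ 3 := pow_le_pow_left₀ (by norm_num) hab.1 3
    rw [div_le_iff₀ (by positivity)]
    have : 0 ≤ ‖δa‖ ^ 2 := by positivity
    nlinarith
  have b2 : ‖δa - δc‖ ^ 2 / (2 * ‖a - c‖ ^ 3) ≤ 52/100 * ‖δa - δc‖ ^ 2 := by
    have h3 : (99/100:ℝ) ^ 3 ≤ ‖a - c‖ ^ 3 := pow_le_pow_left₀ (by norm_num) hac.1 3
    rw [div_le_iff₀ (by positivity)]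
    have : 0 ≤ ‖δa - δc‖ ^ 2 := by positivity
    nlinarith
  have b3 : ‖δc‖ ^ 2 / (2 * ‖c - b‖ ^ 3) ≤ 7/100 * ‖δc‖ ^ 2 := by
    have h3 : (198/100:ℝ) ^ 3 ≤ ‖c - b‖ ^ 3 := pow_le_pow_left₀ (by norm_num) hcb.1 3
    rw [div_le_iff₀ (by positivity)]
    have : 0 ≤ ‖δc‖ ^ 2 := by positivity
    nlinarith
  have b4 : ‖δa - δc‖ ^ 2 ≤ 2 * ‖δa‖ ^ 2 + 2 * ‖δc‖ ^ 2 := by
    have := parallelogram_law_with_norm ℝ δa δc
    have : 0 ≤ ‖δa + δc‖ * ‖δa + δc‖ := by positivity
    nlinarith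
  have r1 : ‖b - z‖ = ‖z - b‖ := norm_sub_rev _ _
  have r2 : ‖b - c‖ = ‖c - b‖ := norm_sub_rev _ _
  unfold cR uA uC
  rw [r1, r2, qA, qC, lC]
  have p1 : 0 ≤ ‖δa‖ ^ 2 := by positivity
  have p2 : 0 ≤ ‖δc‖ ^ 2 := by positivity
  linarith

end Vale.Agent.P121
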