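import Mathlib

namespace Vale.Agent.P121

open scoped RealInnerProductSpace

variable {V : Type*} [NormedAddCommGroup V] [InnerProductSpace ℝ V]

/-- The gradient of `z ↦ 1 / ‖z‖`. -/
noncomputable def fE (z : V) : V := -((‖z‖ ^ 3)⁻¹ • z)

/-- The inverse map of `fE`. -/
noncomputable def fEinv (w : V) : V := -((‖w‖ * Real.sqrt ‖w‖)⁻¹ • w)

theorem fE_neg (z : V) : fE (-z) = -fE z := by
  simp [fE]

theorem norm_fE (z : V) : ‖fE z‖ = (‖z‖ ^ 2)⁻¹ := by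
  by_cases hz : z = 0
  · simp [fE, hz]
  have h : 0 < ‖z‖ := norm_pos_iff.2 hz
  rw [fE, norm_neg, norm_smul, Real.norm_of_nonneg (by positivity)]
  field_simp

theorem norm_fEinv (w : V) : ‖fEinv w‖ = (Real.sqrt ‖w‖)⁻¹ := by
  by_cases hw : w = 0
  · simp [fEinv, hw]
  have h : 0 < ‖w‖ := norm_pos_iff.2 hw
  have hs : 0 < Real.sqrt ‖w‖ := Real.sqrt_pos.2 h
  rw [fEinv, norm_neg, norm_smul, Real.norm_of_nonneg (by positivity)]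
  field_simp

theorem fE_fEinv {w : V} (hw : w ≠ 0) : fE (fEinv w) = w := by
  have h : 0 < ‖w‖ := norm_pos_iff.2 hw
  have hs : 0 < Real.sqrt ‖w‖ := Real.sqrt_pos.2 h
  have hsq : Real.sqrt ‖w‖ * Real.sqrt ‖w‖ = ‖w‖ := Real.mul_self_sqrt h.le
  rw [fE, norm_fEinv, fEinv, smul_neg, neg_neg, smul_smul]
  have : (((Real.sqrt ‖w‖)⁻¹) ^ 3)⁻¹ * (‖w‖ * Real.sqrt ‖w‖)⁻¹ = 1 := by
    generalize Real.sqrt ‖w‖ = s at hs hsq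
    rw [← hsq]
    field_simp
  rw [this, one_smul]

theorem fEinv_fE {z : V} (hz : z ≠ 0) : fEinv (fE z) = z := by
  have h : 0 < ‖z‖ := norm_pos_iff.2 hz
  rw [fEinv, norm_fE, fE, smul_neg, neg_neg, smul_smul]
  have h1 : Real.sqrt ((‖z‖ ^ 2)⁻¹) = ‖z‖⁻¹ := by
    rw [← inv_pow, Real.sqrt_sq (by positivity)]
  rw [h1]
  have : ((‖z‖ ^ 2)⁻¹ * ‖z‖⁻¹)⁻¹ * (‖z‖ ^ 3)⁻¹ = 1 := by
    field_simp
  rw [this, one_smul]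

/-- Tangent line inequality for `s ↦ 1 / sqrt s`, written with `t = sqrt s`. -/
theorem inv_ge_tangent {r t : ℝ} (hr : 0 < r) (ht : 0 < t) :
    3 / (2 * r) - t ^ 2 / (2 * r ^ 3) ≤ 1 / t := by
  rw [div_sub_div _ _ (by positivity) (by positivity), div_le_div_iff₀ (by positivity) ht]
  have key : 0 ≤ (t - r) ^ 2 * (t + 2 * r) := by positivity
  nlinarith [key, mul_pos hr hr, mul_pos hr ht]

/-- The tangent paraboloid inequality for the Coulomb potential. -/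
theorem coulomb_tangent {z z' : V} (hz : z ≠ 0) (hz' : z' ≠ 0) :
    1 / ‖z‖ + ⟪fE z, z' - z⟫ - ‖z' - z‖ ^ 2 / (2 * ‖z‖ ^ 3) ≤ 1 / ‖z'‖ := by
  have h : 0 < ‖z‖ := norm_pos_iff.2 hz
  have h' : 0 < ‖z'‖ := norm_pos_iff.2 hz'
  refine le_trans (le_of_eq ?_) (inv_ge_tangent h h')
  have e1 : ‖z'‖ ^ 2 = ‖z‖ ^ 2 + 2 * ⟪z, z' - z⟫ + ‖z' - z‖ ^ 2 := by
    have : z' = z + (z' - z) := by abel
    conv_lhs => rw [this]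
    rw [norm_add_sq_real]
  rw [e1, fE, inner_neg_left, real_inner_smul_left]
  field_simp
  ring

/-- The inversion in the unit sphere. -/
noncomputable def fN (z : V) : V := (‖z‖ ^ 2)⁻¹ • z

theorem norm_fN (z : V) : ‖fN z‖ = ‖z‖⁻¹ := by
  by_cases hz : z = 0
  · simp [fN, hz]
  have h : 0 < ‖z‖ := norm_pos_iff.2 hz
  rw [fN, norm_smul, Real.norm_of_nonneg (by positivity)]
  field_simp

theorem norm_fN_sub {z w : V} (hz : z ≠ 0) (hw : w ≠ 0) :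
    ‖fN z - fN w‖ = ‖z - w‖ / (‖z‖ * ‖w‖) := by
  have h : 0 < ‖z‖ := norm_pos_iff.2 hz
  have h' : 0 < ‖w‖ := norm_pos_iff.2 hw
  have h1 : ‖fN z - fN w‖ ^ 2 = (‖z - w‖ / (‖z‖ * ‖w‖)) ^ 2 := by
    rw [norm_sub_sq_real, norm_fN, norm_fN, fN, fN, real_inner_smul_left, real_inner_smul_right,
      div_pow, norm_sub_sq_real]
    field_simp
    ring
  exact (pow_left_inj₀ (norm_nonneg _) (by positivity) two_ne_zero).1 h1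

theorem fE_eq (z : V) : fE z = -(‖z‖⁻¹ • fN z) := by
  rw [fE, fN, smul_smul]
  congr 2
  rw [← mul_inv]
  congr 1
  ring

theorem fEinv_eq (z : V) : fEinv z = -(Real.sqrt ‖z‖ • fN z) := by
  by_cases hz : z = 0
  · simp [fEinv, fN, hz]
  have h : 0 < ‖z‖ := norm_pos_iff.2 hz
  have hs : 0 < Real.sqrt ‖z‖ := Real.sqrt_pos.2 h
  have hsq : Real.sqrt ‖z‖ * Real.sqrt ‖z‖ = ‖z‖ := Real.mul_self_sqrt h.le
  rw [fEinv, fN, smul_smul]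
  congr 2
  generalize Real.sqrt ‖z‖ = s at hs hsq
  rw [← hsq]
  field_simp

theorem fE_lipschitz {r : ℝ} (hr : 0 < r) {z w : V} (hz : r ≤ ‖z‖) (hw : r ≤ ‖w‖) :
    ‖fE z - fE w‖ ≤ 2 / r ^ 3 * ‖z - w‖ := by
  have h : 0 < ‖z‖ := lt_of_lt_of_le hr hz
  have h' : 0 < ‖w‖ := lt_of_lt_of_le hr hw
  have hz0 : z ≠ 0 := norm_pos_iff.1 h
  have hw0 : w ≠ 0 := norm_pos_iff.1 h'
  have e : fE z - fE w = -(‖z‖⁻¹ • (fN z - fN w) + (‖z‖⁻¹ - ‖w‖⁻¹) • fN w) := by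
    rw [fE_eq, fE_eq, smul_sub, sub_smul]
    abel
  have hd : |‖z‖⁻¹ - ‖w‖⁻¹| ≤ ‖z - w‖ / (‖z‖ * ‖w‖) := by
    have : ‖z‖⁻¹ - ‖w‖⁻¹ = (‖w‖ - ‖z‖) / (‖z‖ * ‖w‖) := by
      field_simp
    rw [this, abs_div, abs_of_pos (mul_pos h h')]
    gcongr
    rw [norm_sub_rev]
    exact abs_norm_sub_norm_le w z
  have hn := norm_nonneg (z - w)
  calc ‖fE z - fE w‖ ≤ ‖‖z‖⁻¹ • (fN z - fN w)‖ + ‖(‖z‖⁻¹ - ‖w‖⁻¹) • fN w‖ := by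
        rw [e, norm_neg]; exact norm_add_le _ _
    _ = ‖z‖⁻¹ * (‖z - w‖ / (‖z‖ * ‖w‖)) + |‖z‖⁻¹ - ‖w‖⁻¹| * ‖w‖⁻¹ := by
        rw [norm_smul, norm_smul, norm_fN_sub hz0 hw0, norm_fN, Real.norm_eq_abs, Real.norm_eq_abs,
          abs_of_pos (inv_pos.2 h)]
    _ ≤ ‖z‖⁻¹ * (‖z - w‖ / (‖z‖ * ‖w‖)) + ‖z - w‖ / (‖z‖ * ‖w‖) * ‖w‖⁻¹ := by gcongr
    _ ≤ r⁻¹ * (‖z - w‖ / (r * r)) + ‖z - w‖ / (r * r) * r⁻¹ := by gcongr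
    _ = 2 / r ^ 3 * ‖z - w‖ := by field_simp; ring

theorem fEinv_lipschitz {s : ℝ} (hs : 0 < s) {z w : V} (hz : s ^ 2 ≤ ‖z‖) (hw : s ^ 2 ≤ ‖w‖) :
    ‖fEinv z - fEinv w‖ ≤ 2 / s ^ 3 * ‖z - w‖ := by
  have hs2 : 0 < s ^ 2 := by positivity
  have h : 0 < ‖z‖ := lt_of_lt_of_le hs2 hz
  have h' : 0 < ‖w‖ := lt_of_lt_of_le hs2 hw
  have hz0 : z ≠ 0 := norm_pos_iff.1 h
  have hw0 : w ≠ 0 := norm_pos_iff.1 h'
  have hsz : s ≤ Real.sqrt ‖z‖ := Real.le_sqrt_of_sq_le hz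
  have hsw : s ≤ Real.sqrt ‖w‖ := Real.le_sqrt_of_sq_le hw
  have hpz : 0 < Real.sqrt ‖z‖ := lt_of_lt_of_le hs hsz
  have hpw : 0 < Real.sqrt ‖w‖ := lt_of_lt_of_le hs hsw
  have hqz : Real.sqrt ‖z‖ * Real.sqrt ‖z‖ = ‖z‖ := Real.mul_self_sqrt h.le
  have hqw : Real.sqrt ‖w‖ * Real.sqrt ‖w‖ = ‖w‖ := Real.mul_self_sqrt h'.le
  have e : fEinv z - fEinv w =
      -(Real.sqrt ‖z‖ • (fN z - fN w) + (Real.sqrt ‖z‖ - Real.sqrt ‖w‖) • fN w) := by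
    rw [fEinv_eq, fEinv_eq, smul_sub, sub_smul]
    abel
  have hd : |Real.sqrt ‖z‖ - Real.sqrt ‖w‖| ≤ ‖z - w‖ / (2 * s) := by
    have e2 : Real.sqrt ‖z‖ - Real.sqrt ‖w‖ =
        (‖z‖ - ‖w‖) / (Real.sqrt ‖z‖ + Real.sqrt ‖w‖) := by
      rw [eq_div_iff (by positivity), ← hqz, ← hqw]
      simp only [Real.sqrt_mul_self hpz.le, Real.sqrt_mul_self hpw.le]
      ring
    rw [e2, abs_div, abs_of_pos (add_pos hpz hpw)]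
    have h3 : |‖z‖ - ‖w‖| ≤ ‖z - w‖ := abs_norm_sub_norm_le z w
    have h4 : 2 * s ≤ Real.sqrt ‖z‖ + Real.sqrt ‖w‖ := by linarith
    gcongr
  have hn := norm_nonneg (z - w)
  have h5 : Real.sqrt ‖z‖ * (‖z - w‖ / (‖z‖ * ‖w‖)) = ‖z - w‖ / (Real.sqrt ‖z‖ * ‖w‖) := by
    rw [← hqz]
    simp only [Real.sqrt_mul_self hpz.le]
    field_simp
  calc ‖fEinv z - fEinv w‖
      ≤ ‖Real.sqrt ‖z‖ • (fN z - fN w)‖ + ‖(Real.sqrt ‖z‖ - Real.sqrt ‖w‖) • fN w‖ := by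
        rw [e, norm_neg]; exact norm_add_le _ _
    _ = ‖z - w‖ / (Real.sqrt ‖z‖ * ‖w‖) + |Real.sqrt ‖z‖ - Real.sqrt ‖w‖| * ‖w‖⁻¹ := by
        rw [norm_smul, norm_smul, norm_fN_sub hz0 hw0, norm_fN, Real.norm_eq_abs, Real.norm_eq_abs,
          abs_of_pos hpz, h5]
    _ ≤ ‖z - w‖ / (s * s ^ 2) + ‖z - w‖ / (2 * s) * (s ^ 2)⁻¹ := by gcongr
    _ ≤ 2 / s ^ 3 * ‖z - w‖ := by
        have : ‖z - w‖ / (s * s ^ 2) + ‖z - w‖ / (2 * s) * (s ^ 2)⁻¹ = 3 / 2 / s ^ 3 * ‖z - w‖ := by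
          field_simp; ring
        rw [this]
        gcongr
        norm_num

theorem fE_antilipschitz {R : ℝ} (hR : 0 < R) {z w : V} (hz0 : z ≠ 0) (hw0 : w ≠ 0)
    (hz : ‖z‖ ≤ R) (hw : ‖w‖ ≤ R) : ‖z - w‖ ≤ 2 * R ^ 3 * ‖fE z - fE w‖ := by
  have h : 0 < ‖z‖ := norm_pos_iff.2 hz0
  have h' : 0 < ‖w‖ := norm_pos_iff.2 hw0
  have h1 : (R⁻¹) ^ 2 ≤ ‖fE z‖ := by
    rw [norm_fE, inv_pow]
    gcongr
  have h2 : (R⁻¹) ^ 2 ≤ ‖fE w‖ := by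
    rw [norm_fE, inv_pow]
    gcongr
  have := fEinv_lipschitz (inv_pos.2 hR) h1 h2
  rw [fEinv_fE hz0, fEinv_fE hw0] at this
  refine this.trans (le_of_eq ?_)
  field_simp

end Vale.Agent.P121
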