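import Vale.Agent.P121.Abstract

namespace Vale.Agent.P121

open MeasureTheory
open scoped ENNReal

variable {X : Type*} [MeasurableSpace X]

theorem lintegral_zero_of_ae {ν : Measure X} {f : X → ℝ≥0∞} (h : ∀ᵐ a ∂ν, f a = 0) :
    ∫⁻ a, f a ∂ν = 0 := by
  have : f =ᵐ[ν] fun _ => 0 := h
  rw [lintegral_congr_ae this]
  simp

theorem no_monge {ν : Measure X} [IsProbabilityMeasure ν] {A : Set X} (hA : MeasurableSet A)
    (hνA : ∀ᵐ a ∂ν, a ∈ A)
    {b c g : X → X} (hb : Measurable b) (hc : Measurable c) (hg : Measurable g)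
    (hgν : ν.map g = ν) (hgA : ∀ a ∈ A, g a ∈ A) (hcinj : Set.InjOn c A)
    (hcimg : ∀ Z, MeasurableSet Z → Z ⊆ A → MeasurableSet (c '' Z))
    (heqm : ∀ f h : X → X, Measurable f → Measurable h → MeasurableSet {a | f a = h a})
    {R : X → X → X → Prop}
    (hG1 : ∀ a ∈ A, ∀ y z, R a y z →
      (y = b a ∧ z = c a) ∨ (y = c a ∧ z = b a) ∨ (y ∉ c '' A ∧ z ∉ c '' A))
    (hG2 : ∀ a ∈ A, ∀ y z, R (b a) y z → (y = a ∧ z = c a) ∨ (y = c a ∧ z = a))
    (hG3 : ∀ a ∈ A, ∀ y z, R (c a) y z → y ∉ c '' A ∧ z ∉ c '' A)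
    (hG4 : ∀ a ∈ A, ∀ y z, R (g (b a)) y z → y ∉ c '' A ∧ z ∉ c '' A)
    (hG5 : ∀ a ∈ A, ∀ y z, R (g (c a)) y z → y ∉ c '' A ∧ z ∉ c '' A)
    (hd0 : ∀ a ∈ A, a ∉ c '' A) (hd1 : ∀ a ∈ A, b a ∉ c '' A)
    (hd4 : ∀ a ∈ A, g (b a) ∉ c '' A) (hd5 : ∀ a ∈ A, g (c a) ∉ c '' A)
    {T₂ T₃ : X → X} (h2 : Measurable T₂) (h3 : Measurable T₃)
    (m2 : (mu6 ν id b c g (g ∘ b) (g ∘ c)).map T₂ = mu6 ν id b c g (g ∘ b) (g ∘ c))
    (m3 : (mu6 ν id b c g (g ∘ b) (g ∘ c)).map T₃ = mu6 ν id b c g (g ∘ b) (g ∘ c))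
    (hR : ∀ᵐ x ∂(mu6 ν id b c g (g ∘ b) (g ∘ c)), R x (T₂ x) (T₃ x)) : False := by
  have hgb : Measurable (g ∘ b) := hg.comp hb
  have hgc : Measurable (g ∘ c) := hg.comp hc
  obtain ⟨r0, r1, r2, -, r4, r5⟩ := ae_mu6 measurable_id hb hc hg hgb hgc hR
  set μ := mu6 ν id b c g (g ∘ b) (g ∘ c) with hμ
  set A1 : Set X := {a | T₂ a = c a ∨ T₃ a = c a} with hA1
  have mA1 : MeasurableSet A1 := (heqm _ _ h2 hc).union (heqm _ _ h3 hc)
  have key : ∀ Z, MeasurableSet Z → Z ⊆ A → ν Z = 2 * ν (A1 ∩ Z) := by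
    intro Z hZ hZA
    set Y := c '' Z with hYdef
    have hY : MeasurableSet Y := hcimg Z hZ hZA
    have hYsub : Y ⊆ c '' A := Set.image_mono hZA
    set ind : X → ℝ≥0∞ := Y.indicator (fun _ => 1) with hind
    have mind : Measurable ind := measurable_const.indicator hY
    have ind_zero : ∀ x, x ∉ c '' A → ind x = 0 := fun x hx =>
      Set.indicator_of_notMem (fun h => hx (hYsub h)) _
    have ind_c : ∀ a ∈ A, ind (c a) = Z.indicator (fun _ => 1) a := by
      intro a ha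
      by_cases haZ : a ∈ Z
      · rw [Set.indicator_of_mem haZ, hind, Set.indicator_of_mem (Set.mem_image_of_mem c haZ)]
      · rw [Set.indicator_of_notMem haZ, hind, Set.indicator_of_notMem]
        rintro ⟨z, hz, hzc⟩
        exact haZ (hcinj (hZA hz) ha hzc ▸ hz)
    set N : X → ℝ≥0∞ := fun x => ind (T₂ x) + ind (T₃ x) with hN
    have mN : Measurable N := (mind.comp h2).add (mind.comp h3)
    have iZ : ∫⁻ a, Z.indicator (fun _ => (1:ℝ≥0∞)) a ∂ν = ν Z := by
      rw [lintegral_indicator hZ]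
      simp
    have iAZ : ∫⁻ a, (A1 ∩ Z).indicator (fun _ => (1:ℝ≥0∞)) a ∂ν = ν (A1 ∩ Z) := by
      rw [lintegral_indicator (mA1.inter hZ)]
      simp
    -- the measure of Y
    have E1 : ∫⁻ x, ind x ∂μ = (6:ℝ≥0∞)⁻¹ * ν Z := by
      rw [hμ, lintegral_mu6 measurable_id hb hc hg hgb hgc mind]
      have z0 : ∫⁻ a, ind (id a) ∂ν = 0 := by
        apply lintegral_zero_of_ae
        filter_upwards [hνA] with a ha
        exact ind_zero _ (hd0 a ha)
      have z1 : ∫⁻ a, ind (b a) ∂ν = 0 := by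
        apply lintegral_zero_of_ae
        filter_upwards [hνA] with a ha
        exact ind_zero _ (hd1 a ha)
      have z2 : ∫⁻ a, ind (c a) ∂ν = ν Z := by
        rw [← iZ]
        apply lintegral_congr_ae
        filter_upwards [hνA] with a ha
        exact ind_c a ha
      have z3 : ∫⁻ a, ind (g a) ∂ν = 0 := by
        apply lintegral_zero_of_ae
        filter_upwards [hνA] with a ha
        exact ind_zero _ (hd0 _ (hgA a ha))
      have z4 : ∫⁻ a, ind ((g ∘ b) a) ∂ν = 0 := by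
        apply lintegral_zero_of_ae
        filter_upwards [hνA] with a ha
        exact ind_zero _ (hd4 a ha)
      have z5 : ∫⁻ a, ind ((g ∘ c) a) ∂ν = 0 := by
        apply lintegral_zero_of_ae
        filter_upwards [hνA] with a ha
        exact ind_zero _ (hd5 a ha)
      rw [z0, z1, z2, z3, z4, z5]
      simp
    have E2 : ∫⁻ x, N x ∂μ = 2 * ∫⁻ x, ind x ∂μ := by
      have j2 : ∫⁻ x, ind (T₂ x) ∂μ = ∫⁻ x, ind x ∂μ := by
        conv_rhs => rw [← m2]
        rw [lintegral_map mind h2]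
      have j3 : ∫⁻ x, ind (T₃ x) ∂μ = ∫⁻ x, ind x ∂μ := by
        conv_rhs => rw [← m3]
        rw [lintegral_map mind h3]
      rw [hN, lintegral_add_left (f := fun x => ind (T₂ x)) (mind.comp h2), j2, j3]
      ring
    have n0 : ∫⁻ a, N a ∂ν = ν (A1 ∩ Z) := by
      rw [← iAZ]
      apply lintegral_congr_ae
      filter_upwards [hνA, r0] with a ha hRa
      rcases hG1 a ha _ _ hRa with ⟨e2, e3⟩ | ⟨e2, e3⟩ | ⟨e2, e3⟩
      · have ha1 : a ∈ A1 := Or.inr e3
        simp only [id] at e2 e3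
        rw [hN]
        simp only
        rw [e2, e3, ind_zero _ (hd1 a ha), ind_c a ha, zero_add]
        by_cases haZ : a ∈ Z
        · rw [Set.indicator_of_mem haZ, Set.indicator_of_mem (show a ∈ A1 ∩ Z from ⟨ha1, haZ⟩)]
        · rw [Set.indicator_of_notMem haZ, Set.indicator_of_notMem (fun h => haZ h.2)]
      · have ha1 : a ∈ A1 := Or.inl e2
        simp only [id] at e2 e3
        rw [hN]
        simp only
        rw [e2, e3, ind_zero _ (hd1 a ha), ind_c a ha, add_zero]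
        by_cases haZ : a ∈ Z
        · rw [Set.indicator_of_mem haZ, Set.indicator_of_mem (show a ∈ A1 ∩ Z from ⟨ha1, haZ⟩)]
        · rw [Set.indicator_of_notMem haZ, Set.indicator_of_notMem (fun h => haZ h.2)]
      · simp only [id] at e2 e3
        have ha1 : a ∉ A1 := by
          rintro (h | h)
          · exact e2 (h ▸ Set.mem_image_of_mem c ha)
          · exact e3 (h ▸ Set.mem_image_of_mem c ha)
        rw [hN]
        simp only
        rw [ind_zero _ e2, ind_zero _ e3, Set.indicator_of_notMem (fun h => ha1 h.1), add_zero]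
    have E3 : ∫⁻ x, N x ∂μ = (6:ℝ≥0∞)⁻¹ * (2 * ν (A1 ∩ Z) + ν Z) := by
      rw [hμ, lintegral_mu6 measurable_id hb hc hg hgb hgc mN]
      have y0 : ∫⁻ a, N (id a) ∂ν = ν (A1 ∩ Z) := n0
      have y1 : ∫⁻ a, N (b a) ∂ν = ν Z := by
        rw [← iZ]
        apply lintegral_congr_ae
        filter_upwards [hνA, r1] with a ha hRa
        rw [hN]
        simp only
        rcases hG2 a ha _ _ hRa with ⟨e2, e3⟩ | ⟨e2, e3⟩
        · rw [e2, e3, ind_zero _ (hd0 a ha), ind_c a ha, zero_add]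
        · rw [e2, e3, ind_zero _ (hd0 a ha), ind_c a ha, add_zero]
      have y2 : ∫⁻ a, N (c a) ∂ν = 0 := by
        apply lintegral_zero_of_ae
        filter_upwards [hνA, r2] with a ha hRa
        obtain ⟨e2, e3⟩ := hG3 a ha _ _ hRa
        simp only [hN]
        rw [ind_zero _ e2, ind_zero _ e3, add_zero]
      have y3 : ∫⁻ a, N (g a) ∂ν = ν (A1 ∩ Z) := by
        rw [← lintegral_map mN hg, hgν, n0]
      have y4 : ∫⁻ a, N ((g ∘ b) a) ∂ν = 0 := by
        apply lintegral_zero_of_ae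
        filter_upwards [hνA, r4] with a ha hRa
        obtain ⟨e2, e3⟩ := hG4 a ha _ _ hRa
        simp only [hN]
        rw [ind_zero _ e2, ind_zero _ e3, add_zero]
      have y5 : ∫⁻ a, N ((g ∘ c) a) ∂ν = 0 := by
        apply lintegral_zero_of_ae
        filter_upwards [hνA, r5] with a ha hRa
        obtain ⟨e2, e3⟩ := hG5 a ha _ _ hRa
        simp only [hN]
        rw [ind_zero _ e2, ind_zero _ e3, add_zero]
      rw [y0, y1, y2, y3, y4, y5]
      congr 1
      ring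
    rw [E2, E1] at E3
    have h6 : (6:ℝ≥0∞)⁻¹ * (2 * ν Z) = (6:ℝ≥0∞)⁻¹ * (2 * ν (A1 ∩ Z) + ν Z) := by
      rw [← E3]
      ring
    have h7 : 2 * ν Z = 2 * ν (A1 ∩ Z) + ν Z :=
      (ENNReal.mul_right_inj (by simp) (by simp)).mp h6
    rw [two_mul (ν Z)] at h7
    exact (ENNReal.add_left_inj (measure_ne_top ν Z)).mp h7
  have k1 := key (A1 ∩ A) (mA1.inter hA) Set.inter_subset_right
  have e1 : A1 ∩ (A1 ∩ A) = A1 ∩ A := by
    rw [← Set.inter_assoc, Set.inter_self]
  rw [e1] at k1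
  have k2 : ν (A1 ∩ A) = 0 := by
    by_contra hne
    have hfin := measure_ne_top ν (A1 ∩ A)
    have : 1 * ν (A1 ∩ A) = 2 * ν (A1 ∩ A) := by rw [one_mul]; exact k1
    have := (ENNReal.mul_left_inj hne hfin).mp this
    norm_num at this
  have k3 := key A hA subset_rfl
  rw [k2, mul_zero] at k3
  have k4 : ν A = 1 := by
    rw [← measure_univ (μ := ν)]
    exact measure_congr (by
      filter_upwards [hνA] with a ha
      exact propext ⟨fun _ => trivial, fun _ => ha⟩)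
  rw [k4] at k3
  exact one_ne_zero k3

end Vale.Agent.P121
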