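import Vale.Agent.P121.Config

namespace Vale.Agent.P121

open scoped RealInnerProductSpace ENNReal

variable {V : Type*} [NormedAddCommGroup V] [InnerProductSpace ℝ V]

/-- the Coulomb cost with values in `[0,∞]` -/
noncomputable def coul (x y z : V) : ℝ≥0∞ := (edist x y)⁻¹ + (edist x z)⁻¹ + (edist y z)⁻¹

omit [InnerProductSpace ℝ V] in
theorem coul_swap12 (x y z : V) : coul y x z = coul x y z := by
  unfold coul
  rw [edist_comm y x, add_right_comm]

omit [InnerProductSpace ℝ V] in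
theorem coul_swap23 (x y z : V) : coul x z y = coul x y z := by
  unfold coul
  rw [edist_comm z y, add_comm ((edist x z)⁻¹)]

def UN : Fin 5 → ℕ := ![1500, 540, 540, 540, 540]

def InvN : Fin 5 → Fin 5 → ℕ :=
  ![![33000, 970, 970, 970, 970], ![970, 33000, 492, 689, 689], ![970, 492, 33000, 689, 689],
    ![970, 689, 689, 33000, 492], ![970, 689, 689, 492, 33000]]

def GoodT (i j k : Fin 5) : Prop :=
  (i, j, k) ∈ ([(0,1,2),(0,2,1),(1,0,2),(1,2,0),(2,0,1),(2,1,0),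
    (0,3,4),(0,4,3),(3,0,4),(3,4,0),(4,0,3),(4,3,0)] : List (Fin 5 × Fin 5 × Fin 5))

instance (i j k : Fin 5) : Decidable (GoodT i j k) := by unfold GoodT; infer_instance

theorem table_check : ∀ i j k : Fin 5, ¬ GoodT i j k →
    UN i + UN j + UN k < InvN i j + InvN i k + InvN j k := by decide

theorem InvN_pos : ∀ i j : Fin 5, 0 < InvN i j := by decide

theorem goodT0 : ∀ j k : Fin 5, GoodT 0 j k →
    (j = 1 ∧ k = 2) ∨ (j = 2 ∧ k = 1) ∨ (j = 3 ∧ k = 4) ∨ (j = 4 ∧ k = 3) := by decide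

theorem goodT1 : ∀ j k : Fin 5, GoodT 1 j k → (j = 0 ∧ k = 2) ∨ (j = 2 ∧ k = 0) := by decide

theorem goodT234 : ∀ i j k : Fin 5, GoodT i j k → (i = 2 ∨ i = 3 ∨ i = 4) → j ≠ 2 ∧ k ≠ 2 := by
  decide

def ca : Fin 5 → ℝ := ![0, 1, -1, 0, 0]
def cb : Fin 5 → ℝ := ![0, 0, 0, 1, -1]

theorem pair_numeric (i j : Fin 5) : 0 ≤ 1000 / (InvN i j : ℝ) - 3/100 ∧
    (ca i - ca j) ^ 2 + (cb i - cb j) ^ 2 ≤ (1000 / (InvN i j : ℝ) - 3/100) ^ 2 := by
  fin_cases i <;> fin_cases j <;> norm_num [InvN, ca, cb]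

theorem sep_numeric (i j : Fin 5) (h : (ca i - ca j) ^ 2 + (cb i - cb j) ^ 2 ≤ 9/10000) : i = j := by
  fin_cases i <;> fin_cases j <;> first | rfl | (exfalso; norm_num [ca, cb] at h)

/-- the central piece -/
def AA : Set V := {a | ‖a‖ ≤ 1/10000}

/-- all the data of the construction -/
structure Data (V : Type*) [NormedAddCommGroup V] [InnerProductSpace ℝ V] where
  e1 : V
  e2 : V
  g : V ≃ₗᵢ[ℝ] V
  b : V → V
  c : V → V
  he1 : ‖e1‖ = 1
  he2 : ‖e2‖ = 1
  horth : ⟪e1, e2⟫ = 0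
  hg1 : g e1 = e2
  hgg : ∀ x, g (g x) = x
  hcfg : ∀ a, ‖a‖ ≤ 1/10000 → IsConfig e1 a (b a) (c a)
  hbo : ∀ a, ¬ ‖a‖ ≤ 1/10000 → b a = e1
  hco : ∀ a, ¬ ‖a‖ ≤ 1/10000 → c a = -e1

namespace Data

variable (D : Data V)

def P1 : Set V := D.b '' AA
def P2 : Set V := D.c '' AA

def Piece : Fin 5 → Set V
  | 0 => AA
  | 1 => D.P1
  | 2 => D.P2
  | 3 => D.g ⁻¹' D.P1
  | 4 => D.g ⁻¹' D.P2

noncomputable def center (i : Fin 5) : V := ca i • D.e1 + cb i • D.e2

theorem hg2 : D.g D.e2 = D.e1 := by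
  rw [← D.hg1, D.hgg]

theorem near {i : Fin 5} {x : V} (hx : x ∈ D.Piece i) : ‖x - D.center i‖ ≤ 3/200 := by
  fin_cases i
  · have h : ‖x‖ ≤ 1/10000 := hx
    simp [center, ca, cb]
    linarith
  · obtain ⟨a, ha, rfl⟩ := hx
    have := (D.hcfg a ha).hb
    simpa [center, ca, cb] using this
  · obtain ⟨a, ha, rfl⟩ := hx
    have := (D.hcfg a ha).hc
    simp [center, ca, cb]
    linarith
  · obtain ⟨a, ha, hax⟩ := hx
    have := (D.hcfg a ha).hb
    have h2 : ‖x - D.e2‖ = ‖D.b a - D.e1‖ := by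
      rw [hax, ← D.hg2, ← map_sub, LinearIsometryEquiv.norm_map]
    simp [center, ca, cb]
    linarith
  · obtain ⟨a, ha, hax⟩ := hx
    have := (D.hcfg a ha).hc
    have h2 : ‖x + D.e2‖ = ‖D.c a + D.e1‖ := by
      rw [hax, ← D.hg2, ← map_add, LinearIsometryEquiv.norm_map]
    simp [center, ca, cb]
    linarith

theorem norm_center_sub (i j : Fin 5) :
    ‖D.center i - D.center j‖ ^ 2 = (ca i - ca j) ^ 2 + (cb i - cb j) ^ 2 := by
  have h : D.center i - D.center j = (ca i - ca j) • D.e1 + (cb i - cb j) • D.e2 := by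
    unfold center
    module
  rw [h, norm_add_sq_real, norm_smul, norm_smul, inner_smul_left, inner_smul_right, D.horth,
    D.he1, D.he2]
  simp

theorem piece_inj {i j : Fin 5} {x : V} (hi : x ∈ D.Piece i) (hj : x ∈ D.Piece j) : i = j := by
  apply sep_numeric
  rw [← D.norm_center_sub]
  have h1 := D.near hi
  have h2 := D.near hj
  have h3 : ‖D.center i - D.center j‖ ≤ 3/100 := by
    have e : D.center i - D.center j = (x - D.center j) - (x - D.center i) := by abel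
    rw [e]
    have := norm_sub_le (x - D.center j) (x - D.center i)
    linarith
  have h0 : 0 ≤ ‖D.center i - D.center j‖ := norm_nonneg _
  nlinarith

theorem pair_bound {i j : Fin 5} {x y : V} (hi : x ∈ D.Piece i) (hj : y ∈ D.Piece j) :
    ENNReal.ofReal ((InvN i j : ℝ) / 1000) ≤ (edist x y)⁻¹ := by
  have hpos : (0:ℝ) < InvN i j := by exact_mod_cast InvN_pos i j
  obtain ⟨n1, n2⟩ := pair_numeric i j
  rw [← D.norm_center_sub] at n2
  have h3 : ‖D.center i - D.center j‖ ≤ 1000 / (InvN i j : ℝ) - 3/100 :=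
    (abs_le_of_sq_le_sq' n2 n1).2
  have h1 := D.near hi
  have h2 := D.near hj
  have h4 : dist x y ≤ 1000 / (InvN i j : ℝ) := by
    rw [dist_eq_norm]
    have e : x - y = (x - D.center i) + (D.center i - D.center j) - (y - D.center j) := by abel
    rw [e]
    have t1 := norm_sub_le ((x - D.center i) + (D.center i - D.center j)) (y - D.center j)
    have t2 := norm_add_le (x - D.center i) (D.center i - D.center j)
    linarith
  have h5 : edist x y ≤ ENNReal.ofReal (1000 / (InvN i j : ℝ)) := by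
    rw [edist_dist]
    exact ENNReal.ofReal_le_ofReal h4
  have h6 : ENNReal.ofReal ((InvN i j : ℝ) / 1000) = (ENNReal.ofReal (1000 / (InvN i j : ℝ)))⁻¹ := by
    rw [← ENNReal.ofReal_inv_of_pos (by positivity), inv_div]
  rw [h6]
  exact ENNReal.inv_le_inv.mpr h5

theorem injOn_b : Set.InjOn D.b AA := by
  intro a ha a' ha' h
  have := ((D.hcfg a ha).estimates D.he1 (D.hcfg a' ha')).2.2.1
  rw [h, sub_self, norm_zero, mul_zero] at this
  exact sub_eq_zero.mp (norm_le_zero_iff.mp this)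

theorem injOn_c : Set.InjOn D.c AA := by
  intro a ha a' ha' h
  have := ((D.hcfg a ha).estimates D.he1 (D.hcfg a' ha')).2.2.2
  rw [h, sub_self, norm_zero, mul_zero] at this
  exact sub_eq_zero.mp (norm_le_zero_iff.mp this)

noncomputable def binv (y : V) : V := Function.invFunOn D.b AA y

theorem binv_b {a : V} (ha : a ∈ AA) : D.binv (D.b a) = a :=
  D.injOn_b.leftInvOn_invFunOn ha

noncomputable def uBval (a : V) : ℝ := cR a (D.b a) (D.c a) - uA a - uC D.e1 (D.c a)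

noncomputable def uB (y : V) : ℝ := D.uBval (D.binv y)

noncomputable def u (x : V) : ℝ :=
  AA.indicator uA x + (D.P1.indicator D.uB x + D.P2.indicator (uC D.e1) x)
    + (D.P1.indicator D.uB (D.g x) + D.P2.indicator (uC D.e1) (D.g x))

noncomputable def ub (x : V) : ℝ≥0∞ := ENNReal.ofReal (D.u x)

theorem g_mem_AA {x : V} : D.g x ∈ (AA : Set V) ↔ x ∈ (AA : Set V) := by
  simp [AA]

theorem u_g (x : V) : D.u (D.g x) = D.u x := by
  unfold u
  rw [D.hgg]
  have : (AA : Set V).indicator uA (D.g x) = (AA : Set V).indicator uA x := by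
    by_cases h : x ∈ (AA : Set V)
    · rw [Set.indicator_of_mem h, Set.indicator_of_mem (D.g_mem_AA.mpr h)]
      simp [uA]
    · rw [Set.indicator_of_notMem h, Set.indicator_of_notMem (fun h' => h (D.g_mem_AA.mp h'))]
  rw [this]
  ring

theorem ub_g (x : V) : D.ub (D.g x) = D.ub x := by
  unfold ub
  rw [D.u_g]

theorem coul_g (x y z : V) : coul (D.g x) (D.g y) (D.g z) = coul x y z := by
  unfold coul
  simp [LinearIsometryEquiv.edist_map]

theorem notMem {i j : Fin 5} {x : V} (hi : x ∈ D.Piece i) (hij : i ≠ j) : x ∉ D.Piece j :=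
  fun hj => hij (D.piece_inj hi hj)

theorem u_eq0 {x : V} (hx : x ∈ (AA : Set V)) : D.u x = uA x := by
  have h0 : x ∈ D.Piece 0 := hx
  have h1 : x ∉ D.P1 := D.notMem (j := 1) h0 (by decide)
  have h2 : x ∉ D.P2 := D.notMem (j := 2) h0 (by decide)
  have h3 : D.g x ∉ D.P1 := D.notMem (j := 3) h0 (by decide)
  have h4 : D.g x ∉ D.P2 := D.notMem (j := 4) h0 (by decide)
  unfold u
  rw [Set.indicator_of_mem hx, Set.indicator_of_notMem h1, Set.indicator_of_notMem h2,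
    Set.indicator_of_notMem h3, Set.indicator_of_notMem h4]
  ring

theorem u_eq1 {x : V} (hx : x ∈ D.P1) : D.u x = D.uB x := by
  have h0 : x ∈ D.Piece 1 := hx
  have h1 : x ∉ (AA : Set V) := D.notMem (j := 0) h0 (by decide)
  have h2 : x ∉ D.P2 := D.notMem (j := 2) h0 (by decide)
  have h3 : D.g x ∉ D.P1 := D.notMem (j := 3) h0 (by decide)
  have h4 : D.g x ∉ D.P2 := D.notMem (j := 4) h0 (by decide)
  unfold u
  rw [Set.indicator_of_mem hx, Set.indicator_of_notMem h1, Set.indicator_of_notMem h2,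
    Set.indicator_of_notMem h3, Set.indicator_of_notMem h4]
  ring

theorem u_eq2 {x : V} (hx : x ∈ D.P2) : D.u x = uC D.e1 x := by
  have h0 : x ∈ D.Piece 2 := hx
  have h1 : x ∉ (AA : Set V) := D.notMem (j := 0) h0 (by decide)
  have h2 : x ∉ D.P1 := D.notMem (j := 1) h0 (by decide)
  have h3 : D.g x ∉ D.P1 := D.notMem (j := 3) h0 (by decide)
  have h4 : D.g x ∉ D.P2 := D.notMem (j := 4) h0 (by decide)
  unfold u
  rw [Set.indicator_of_mem hx, Set.indicator_of_notMem h1, Set.indicator_of_notMem h2,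
    Set.indicator_of_notMem h3, Set.indicator_of_notMem h4]
  ring

theorem u_b {a : V} (ha : a ∈ (AA : Set V)) : D.u (D.b a) = D.uBval a := by
  rw [D.u_eq1 ⟨a, ha, rfl⟩]
  unfold uB
  rw [D.binv_b ha]

theorem u_c {a : V} (ha : a ∈ (AA : Set V)) : D.u (D.c a) = uC D.e1 (D.c a) :=
  D.u_eq2 ⟨a, ha, rfl⟩


theorem uA_bounds {a : V} (ha : a ∈ (AA : Set V)) : 14999/10000 ≤ uA a ∧ uA a ≤ 3/2 := by
  have h : ‖a‖ ≤ 1/10000 := ha
  have h0 : 0 ≤ ‖a‖ := norm_nonneg _
  unfold uA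
  constructor <;> nlinarith

theorem uC_bounds {e c : V} (he : ‖e‖ = 1) (hc : ‖c + e‖ ≤ 1/1000) :
    4987/10000 ≤ uC e c ∧ uC e c ≤ 502/1000 := by
  have h0 : 0 ≤ ‖c + e‖ := norm_nonneg _
  have h1 : |⟪(5/4:ℝ) • e, c + e⟫| ≤ 5/4 * ‖c + e‖ := by
    have := abs_real_inner_le_norm ((5/4:ℝ) • e) (c + e)
    rw [norm_smul, he] at this
    norm_num at this
    linarith
  have h2 := abs_le.mp h1
  unfold uC
  constructor <;> nlinarith [h2.1, h2.2]

theorem cR_bounds {e a b c : V} (he : ‖e‖ = 1) (h : IsConfig e a b c) :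
    246/100 ≤ cR a b c ∧ cR a b c ≤ 25356/10000 := by
  have hab := h.ab he
  have hac := h.ac he
  have hcb := h.cb he
  have r2 : ‖b - c‖ = ‖c - b‖ := norm_sub_rev _ _
  unfold cR
  rw [r2]
  have u1 : ‖a - b‖⁻¹ ≤ (98/100:ℝ)⁻¹ := inv_anti₀ (by norm_num) hab.1
  have u2 : ‖a - c‖⁻¹ ≤ (99/100:ℝ)⁻¹ := inv_anti₀ (by norm_num) hac.1
  have u3 : ‖c - b‖⁻¹ ≤ (198/100:ℝ)⁻¹ := inv_anti₀ (by norm_num) hcb.1
  have l1 : (102/100:ℝ)⁻¹ ≤ ‖a - b‖⁻¹ := inv_anti₀ (by linarith [hab.1]) hab.2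
  have l2 : (101/100:ℝ)⁻¹ ≤ ‖a - c‖⁻¹ := inv_anti₀ (by linarith [hac.1]) hac.2
  have l3 : (202/100:ℝ)⁻¹ ≤ ‖c - b‖⁻¹ := inv_anti₀ (by linarith [hcb.1]) hcb.2
  norm_num at u1 u2 u3 l1 l2 l3
  constructor <;> linarith

theorem uBval_bounds {a : V} (ha : a ∈ (AA : Set V)) : 0 ≤ D.uBval a ∧ D.uBval a ≤ 54/100 := by
  have h := D.hcfg a ha
  have h1 := cR_bounds D.he1 h
  have h2 := uA_bounds ha
  have h3 := uC_bounds D.he1 h.hc
  unfold uBval
  constructor <;> linarith [h1.1, h1.2, h2.1, h2.2, h3.1, h3.2]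

theorem u_bounds {i : Fin 5} {x : V} (hx : x ∈ D.Piece i) :
    0 ≤ D.u x ∧ D.u x ≤ (UN i : ℝ) / 1000 := by
  fin_cases i
  · have h : x ∈ (AA : Set V) := hx
    rw [D.u_eq0 h]
    have := uA_bounds h
    norm_num [UN]
    constructor <;> linarith [this.1, this.2]
  · obtain ⟨a, ha, rfl⟩ := hx
    rw [D.u_b ha]
    have := D.uBval_bounds ha
    norm_num [UN]
    constructor <;> linarith [this.1, this.2]
  · obtain ⟨a, ha, rfl⟩ := hx
    rw [D.u_c ha]
    have := uC_bounds D.he1 (D.hcfg a ha).hc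
    norm_num [UN]
    constructor <;> linarith [this.1, this.2]
  · obtain ⟨a, ha, hax⟩ := hx
    rw [← D.u_g, ← hax, D.u_b ha]
    have := D.uBval_bounds ha
    norm_num [UN]
    constructor <;> linarith [this.1, this.2]
  · obtain ⟨a, ha, hax⟩ := hx
    rw [← D.u_g, ← hax, D.u_c ha]
    have := uC_bounds D.he1 (D.hcfg a ha).hc
    norm_num [UN]
    constructor <;> linarith [this.1, this.2]

theorem ub_add {i j k : Fin 5} {x y z : V} (hi : x ∈ D.Piece i) (hj : y ∈ D.Piece j)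
    (hk : z ∈ D.Piece k) : D.ub x + D.ub y + D.ub z = ENNReal.ofReal (D.u x + D.u y + D.u z) := by
  have h1 := (D.u_bounds hi).1
  have h2 := (D.u_bounds hj).1
  have h3 := (D.u_bounds hk).1
  unfold ub
  rw [ENNReal.ofReal_add (by positivity) h3, ENNReal.ofReal_add h1 h2]

theorem strict {i j k : Fin 5} {x y z : V} (hi : x ∈ D.Piece i) (hj : y ∈ D.Piece j)
    (hk : z ∈ D.Piece k) (hng : ¬ GoodT i j k) : D.ub x + D.ub y + D.ub z < coul x y z := by
  have h1 := (D.u_bounds hi).2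
  have h2 := (D.u_bounds hj).2
  have h3 := (D.u_bounds hk).2
  have ht : ((UN i + UN j + UN k : ℕ) : ℝ) < ((InvN i j + InvN i k + InvN j k : ℕ) : ℝ) := by
    exact_mod_cast table_check i j k hng
  push_cast at ht
  have p1 : (0:ℝ) < InvN i j := by exact_mod_cast InvN_pos i j
  have p2 : (0:ℝ) < InvN i k := by exact_mod_cast InvN_pos i k
  have p3 : (0:ℝ) < InvN j k := by exact_mod_cast InvN_pos j k
  rw [D.ub_add hi hj hk]
  calc ENNReal.ofReal (D.u x + D.u y + D.u z)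
      < ENNReal.ofReal ((InvN i j : ℝ) / 1000 + (InvN i k : ℝ) / 1000 + (InvN j k : ℝ) / 1000) := by
        rw [ENNReal.ofReal_lt_ofReal_iff (by positivity)]
        linarith
    _ = ENNReal.ofReal ((InvN i j : ℝ) / 1000) + ENNReal.ofReal ((InvN i k : ℝ) / 1000)
        + ENNReal.ofReal ((InvN j k : ℝ) / 1000) := by
        rw [ENNReal.ofReal_add (by positivity) (by positivity),
          ENNReal.ofReal_add (by positivity) (by positivity)]
    _ ≤ coul x y z := by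
        unfold coul
        exact add_le_add (add_le_add (D.pair_bound hi hj) (D.pair_bound hi hk)) (D.pair_bound hj hk)

omit [InnerProductSpace ℝ V] in
theorem coul_eq_ofReal {x y z : V} (hxy : x ≠ y) (hxz : x ≠ z) (hyz : y ≠ z) :
    coul x y z = ENNReal.ofReal (cR x y z) := by
  have h1 : 0 < ‖x - y‖ := norm_pos_iff.mpr (sub_ne_zero.mpr hxy)
  have h2 : 0 < ‖x - z‖ := norm_pos_iff.mpr (sub_ne_zero.mpr hxz)
  have h3 : 0 < ‖y - z‖ := norm_pos_iff.mpr (sub_ne_zero.mpr hyz)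
  unfold coul cR
  rw [ENNReal.ofReal_add (by positivity) (by positivity),
    ENNReal.ofReal_add (by positivity) (by positivity),
    ENNReal.ofReal_inv_of_pos h1, ENNReal.ofReal_inv_of_pos h2, ENNReal.ofReal_inv_of_pos h3,
    edist_dist, edist_dist, edist_dist, dist_eq_norm, dist_eq_norm, dist_eq_norm]

theorem ne_of_pieces {i j : Fin 5} {x y : V} (hi : x ∈ D.Piece i) (hj : y ∈ D.Piece j)
    (hij : i ≠ j) : x ≠ y := by
  rintro rfl
  exact hij (D.piece_inj hi hj)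

theorem good1 {x y z : V} (hx : x ∈ (AA : Set V)) (hy : y ∈ D.P1) (hz : z ∈ D.P2) :
    D.ub x + D.ub y + D.ub z ≤ coul x y z ∧
      (D.ub x + D.ub y + D.ub z = coul x y z → y = D.b x ∧ z = D.c x) := by
  have h0 : x ∈ D.Piece 0 := hx
  have h1 : y ∈ D.Piece 1 := hy
  have h2 : z ∈ D.Piece 2 := hz
  have nxy := D.ne_of_pieces h0 h1 (by decide)
  have nxz := D.ne_of_pieces h0 h2 (by decide)
  have nyz := D.ne_of_pieces h1 h2 (by decide)
  rw [D.ub_add h0 h1 h2, coul_eq_ofReal nxy nxz nyz]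
  obtain ⟨a, ha, rfl⟩ := hy
  have key := good_ineq D.he1 (D.hcfg a ha) nxy nxz nyz.symm
  rw [D.u_eq0 hx, D.u_b ha, D.u_eq2 hz]
  have q1 : 0 ≤ ‖x - a‖ ^ 2 := by positivity
  have q2 : 0 ≤ ‖z - D.c a‖ ^ 2 := by positivity
  have hle : uA x + D.uBval a + uC D.e1 z ≤ cR x (D.b a) z := by
    unfold uBval
    linarith
  refine ⟨ENNReal.ofReal_le_ofReal hle, ?_⟩
  intro heq
  have hnn : 0 ≤ uA x + D.uBval a + uC D.e1 z := by
    have a1 := (uA_bounds hx).1
    have a2 := (D.uBval_bounds ha).1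
    obtain ⟨a', ha', rfl⟩ := hz
    have a3 := (uC_bounds D.he1 (D.hcfg a' ha').hc).1
    linarith
  have heq' : uA x + D.uBval a + uC D.e1 z = cR x (D.b a) z := by
    have := (ENNReal.ofReal_eq_ofReal_iff hnn (hnn.trans hle)).mp heq
    exact this
  have hz0 : 40 * ‖x - a‖ ^ 2 + 3 * ‖z - D.c a‖ ^ 2 ≤ 0 := by
    unfold uBval at heq'
    linarith
  have e1 : ‖x - a‖ ^ 2 = 0 := by linarith
  have e2 : ‖z - D.c a‖ ^ 2 = 0 := by linarith
  have e3 : x = a := sub_eq_zero.mp (norm_eq_zero.mp (pow_eq_zero_iff (by norm_num) |>.mp e1))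
  have e4 : z = D.c a := sub_eq_zero.mp (norm_eq_zero.mp (pow_eq_zero_iff (by norm_num) |>.mp e2))
  rw [e3]
  exact ⟨rfl, e4⟩

theorem good2 {x y z : V} (hx : x ∈ (AA : Set V)) (hy : D.g y ∈ D.P1) (hz : D.g z ∈ D.P2) :
    D.ub x + D.ub y + D.ub z ≤ coul x y z := by
  have := (D.good1 (D.g_mem_AA.mpr hx) hy hz).1
  rwa [D.ub_g, D.ub_g, D.ub_g, D.coul_g] at this

/-- the union of the five pieces -/
def W : Set V := {x | ∃ i, x ∈ D.Piece i}

theorem feasible {x y z : V} (hx : x ∈ D.W) (hy : y ∈ D.W) (hz : z ∈ D.W) :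
    D.ub x + D.ub y + D.ub z ≤ coul x y z := by
  obtain ⟨i, hi⟩ := hx
  obtain ⟨j, hj⟩ := hy
  obtain ⟨k, hk⟩ := hz
  by_cases hg : GoodT i j k
  · simp only [GoodT, List.mem_cons, Prod.mk.injEq, List.not_mem_nil, or_false] at hg
    rcases hg with ⟨rfl, rfl, rfl⟩ | ⟨rfl, rfl, rfl⟩ | ⟨rfl, rfl, rfl⟩ | ⟨rfl, rfl, rfl⟩ |
      ⟨rfl, rfl, rfl⟩ | ⟨rfl, rfl, rfl⟩ | ⟨rfl, rfl, rfl⟩ | ⟨rfl, rfl, rfl⟩ | ⟨rfl, rfl, rfl⟩ |
      ⟨rfl, rfl, rfl⟩ | ⟨rfl, rfl, rfl⟩ | ⟨rfl, rfl, rfl⟩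
    · exact (D.good1 hi hj hk).1
    · have := (D.good1 hi hk hj).1
      rwa [coul_swap23, add_right_comm] at this
    · have := (D.good1 hj hi hk).1
      rwa [coul_swap12, add_comm (D.ub y)] at this
    · have := (D.good1 hk hi hj).1
      rwa [coul_swap12, coul_swap23, add_assoc, add_comm] at this
    · have := (D.good1 hj hk hi).1
      rwa [coul_swap23, coul_swap12, add_right_comm, add_comm (D.ub y)] at this
    · have := (D.good1 hk hj hi).1
      rwa [coul_swap12, coul_swap23, coul_swap12, add_right_comm, add_comm (D.ub z),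
        add_right_comm] at this
    · exact D.good2 hi hj hk
    · have := D.good2 hi hk hj
      rwa [coul_swap23, add_right_comm] at this
    · have := D.good2 hj hi hk
      rwa [coul_swap12, add_comm (D.ub y)] at this
    · have := D.good2 hk hi hj
      rwa [coul_swap12, coul_swap23, add_assoc, add_comm] at this
    · have := D.good2 hj hk hi
      rwa [coul_swap23, coul_swap12, add_right_comm, add_comm (D.ub y)] at this
    · have := D.good2 hk hj hi
      rwa [coul_swap12, coul_swap23, coul_swap12, add_right_comm, add_comm (D.ub z),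
        add_right_comm] at this
  · exact (D.strict hi hj hk hg).le

end Data

end Vale.Agent.P121
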