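import Mathlib

namespace Vale.Agent.P121

open scoped RealInnerProductSpace

variable {V : Type*} [NormedAddCommGroup V] [InnerProductSpace ℝ V]

/-- The Coulomb field, the gradient of `z ↦ ‖z‖⁻¹`. -/
noncomputable def EF (z : V) : V := -((‖z‖⁻¹) ^ 3 • z)

/-- The inverse map of the Coulomb field. -/
noncomputable def EFinv (y : V) : V := -((Real.sqrt ‖y‖ / ‖y‖ ^ 2) • y)

theorem EF_neg (z : V) : EF (-z) = -EF z := by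
  simp [EF]

theorem norm_EFinv {y : V} (hy : y ≠ 0) : ‖EFinv y‖ = (Real.sqrt ‖y‖)⁻¹ := by
  have h0 : 0 < ‖y‖ := norm_pos_iff.mpr hy
  have hs : 0 < Real.sqrt ‖y‖ := Real.sqrt_pos.mpr h0
  have hsq : Real.sqrt ‖y‖ ^ 2 = ‖y‖ := Real.sq_sqrt h0.le
  unfold EFinv
  rw [norm_neg, norm_smul, Real.norm_of_nonneg (by positivity)]
  field_simp
  nlinarith [hsq]

theorem EF_EFinv {y : V} (hy : y ≠ 0) : EF (EFinv y) = y := by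
  have h0 : 0 < ‖y‖ := norm_pos_iff.mpr hy
  have hs : 0 < Real.sqrt ‖y‖ := Real.sqrt_pos.mpr h0
  have hsq : Real.sqrt ‖y‖ ^ 2 = ‖y‖ := Real.sq_sqrt h0.le
  have hn := norm_EFinv hy
  unfold EF
  rw [hn]
  unfold EFinv
  rw [smul_neg, neg_neg, smul_smul, inv_inv]
  have : Real.sqrt ‖y‖ ^ 3 * (Real.sqrt ‖y‖ / ‖y‖ ^ 2) = 1 := by
    have h4 : Real.sqrt ‖y‖ ^ 4 = ‖y‖ ^ 2 := by
      calc Real.sqrt ‖y‖ ^ 4 = (Real.sqrt ‖y‖ ^ 2) ^ 2 := by ring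
        _ = ‖y‖ ^ 2 := by rw [hsq]
    field_simp
    linarith [h4]
  rw [this, one_smul]

theorem inner_EF (z w : V) : ⟪EF z, w⟫ = -((‖z‖⁻¹) ^ 3 * ⟪z, w⟫) := by
  simp [EF, inner_neg_left, inner_smul_left]

/-- The tangent paraboloid lower bound for the Coulomb kernel. -/
theorem tangent_paraboloid {z z' : V} (hz : z ≠ 0) (hz' : z' ≠ 0) :
    ‖z‖⁻¹ + ⟪EF z, z' - z⟫ - ‖z' - z‖ ^ 2 / (2 * ‖z‖ ^ 3) ≤ ‖z'‖⁻¹ := by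
  have h0 : 0 < ‖z‖ := norm_pos_iff.mpr hz
  have h1 : 0 < ‖z'‖ := norm_pos_iff.mpr hz'
  have hin : ⟪z, z' - z⟫ = (‖z'‖ ^ 2 - ‖z‖ ^ 2 - ‖z' - z‖ ^ 2) / 2 := by
    have h := norm_sub_sq_real z' z
    rw [inner_sub_right, real_inner_self_eq_norm_sq, real_inner_comm]
    linarith
  rw [inner_EF, hin]
  set r := ‖z‖
  set s := ‖z'‖
  set d := ‖z' - z‖
  have key : r⁻¹ + -(r⁻¹ ^ 3 * ((s ^ 2 - r ^ 2 - d ^ 2) / 2)) - d ^ 2 / (2 * r ^ 3)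
      = (3 * r ^ 2 - s ^ 2) / (2 * r ^ 3) := by
    field_simp
    ring
  rw [key, div_le_iff₀ (by positivity)]
  have : s⁻¹ * (2 * r ^ 3) = (2 * r ^ 3) / s := by field_simp
  rw [this, le_div_iff₀ h1]
  nlinarith [mul_nonneg (sq_nonneg (r - s)) (by positivity : 0 ≤ 2 * r + s)]

theorem norm_sq_EF_sub {z z' : V} (hz : z ≠ 0) (hz' : z' ≠ 0) :
    ‖EF z - EF z'‖ ^ 2 = (‖z‖ - ‖z'‖) ^ 2 * (‖z‖ ^ 2 + ‖z‖ * ‖z'‖ + ‖z'‖ ^ 2) / (‖z‖ ^ 4 * ‖z'‖ ^ 4)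
      + ‖z - z'‖ ^ 2 / (‖z‖ ^ 3 * ‖z'‖ ^ 3) := by
  have h0 : 0 < ‖z‖ := norm_pos_iff.mpr hz
  have h1 : 0 < ‖z'‖ := norm_pos_iff.mpr hz'
  have hin : ⟪z, z'⟫ = (‖z‖ ^ 2 + ‖z'‖ ^ 2 - ‖z - z'‖ ^ 2) / 2 := by
    have h := norm_sub_sq_real z z'
    linarith
  have e1 : ‖EF z - EF z'‖ ^ 2 = ‖EF z‖ ^ 2 - 2 * ⟪EF z, EF z'⟫ + ‖EF z'‖ ^ 2 := norm_sub_sq_real _ _
  have n1 : ∀ w : V, ‖EF w‖ ^ 2 = (‖w‖⁻¹) ^ 6 * ‖w‖ ^ 2 := by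
    intro w
    unfold EF
    rw [norm_neg, norm_smul, Real.norm_of_nonneg (by positivity)]
    ring
  have i1 : ⟪EF z, EF z'⟫ = (‖z‖⁻¹) ^ 3 * (‖z'‖⁻¹) ^ 3 * ⟪z, z'⟫ := by
    unfold EF
    rw [inner_neg_neg, inner_smul_left, inner_smul_right]
    simp
    ring
  rw [e1, n1, n1, i1, hin]
  set r := ‖z‖
  set s := ‖z'‖
  set d := ‖z - z'‖
  field_simp
  ring

theorem EF_lipschitz {z z' : V} {d : ℝ} (hd : 0 < d) (hz : d ≤ ‖z‖) (hz' : d ≤ ‖z'‖) :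
    ‖EF z - EF z'‖ ≤ 2 / d ^ 3 * ‖z - z'‖ := by
  have h0 : 0 < ‖z‖ := lt_of_lt_of_le hd hz
  have h1 : 0 < ‖z'‖ := lt_of_lt_of_le hd hz'
  have hzn : z ≠ 0 := norm_pos_iff.mp h0
  have hzn' : z' ≠ 0 := norm_pos_iff.mp h1
  have hsq := norm_sq_EF_sub hzn hzn'
  have habs : (‖z‖ - ‖z'‖) ^ 2 ≤ ‖z - z'‖ ^ 2 := by
    have := abs_norm_sub_norm_le z z'
    rw [← sq_abs (‖z‖ - ‖z'‖)]
    exact pow_le_pow_left₀ (abs_nonneg _) this 2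
  set r := ‖z‖
  set s := ‖z'‖
  set t := ‖z - z'‖
  have ht : 0 ≤ t := norm_nonneg _
  have hb : ‖EF z - EF z'‖ ^ 2 ≤ ((r + s) / (r ^ 2 * s ^ 2) * t) ^ 2 := by
    rw [hsq]
    have : ((r + s) / (r ^ 2 * s ^ 2) * t) ^ 2
        = t ^ 2 * (r ^ 2 + r * s + s ^ 2) / (r ^ 4 * s ^ 4) + t ^ 2 / (r ^ 3 * s ^ 3) := by
      field_simp
      ring
    rw [this]
    gcongr
  have hb2 : ‖EF z - EF z'‖ ≤ (r + s) / (r ^ 2 * s ^ 2) * t :=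
    abs_le_of_sq_le_sq' hb (by positivity) |>.2
  refine hb2.trans ?_
  have e : (r + s) / (r ^ 2 * s ^ 2) = 1 / (r * s ^ 2) + 1 / (r ^ 2 * s) := by
    field_simp
  have e2 : 2 / d ^ 3 = 1 / (d * d ^ 2) + 1 / (d ^ 2 * d) := by
    field_simp
    ring
  have e3 : (r + s) / (r ^ 2 * s ^ 2) ≤ 2 / d ^ 3 := by
    rw [e, e2]
    gcongr
  exact mul_le_mul_of_nonneg_right e3 ht

theorem EF_antilipschitz {z z' : V} {D : ℝ} (hzn : z ≠ 0) (hzn' : z' ≠ 0) (hz : ‖z‖ ≤ D)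
    (hz' : ‖z'‖ ≤ D) : ‖z - z'‖ ≤ D ^ 3 * ‖EF z - EF z'‖ := by
  have h0 : 0 < ‖z‖ := norm_pos_iff.mpr hzn
  have h1 : 0 < ‖z'‖ := norm_pos_iff.mpr hzn'
  have hD : 0 < D := lt_of_lt_of_le h0 hz
  have hsq := norm_sq_EF_sub hzn hzn'
  set r := ‖z‖
  set s := ‖z'‖
  set t := ‖z - z'‖
  have ht : 0 ≤ t := norm_nonneg _
  have h3 : t ^ 2 / (r ^ 3 * s ^ 3) ≤ ‖EF z - EF z'‖ ^ 2 := by
    rw [hsq]
    have : 0 ≤ (r - s) ^ 2 * (r ^ 2 + r * s + s ^ 2) / (r ^ 4 * s ^ 4) := by positivity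
    linarith
  have h4 : t ^ 2 / (D ^ 3 * D ^ 3) ≤ t ^ 2 / (r ^ 3 * s ^ 3) := by
    gcongr
  have h5 : t ^ 2 ≤ (D ^ 3 * ‖EF z - EF z'‖) ^ 2 := by
    have := h4.trans h3
    rw [div_le_iff₀ (by positivity)] at this
    nlinarith [this]
  exact abs_le_of_sq_le_sq' h5 (by positivity) |>.2

end Vale.Agent.P121
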