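import Vale.Agent.P121.Meas

namespace Vale.Agent.P121

open MeasureTheory
open scoped RealInnerProductSpace ENNReal

variable {V : Type*} [NormedAddCommGroup V] [InnerProductSpace ℝ V] [FiniteDimensional ℝ V]
  [MeasurableSpace V] [BorelSpace V]

/-- normalized Lebesgue measure on the central ball -/
noncomputable def nu : Measure V := (volume (AA : Set V))⁻¹ • (volume : Measure V).restrict AA

theorem vol_AA_ne_zero : volume (AA : Set V) ≠ 0 := by
  rw [AA_eq]
  exact (Metric.measure_closedBall_pos volume 0 (by norm_num)).ne'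

theorem vol_AA_ne_top : volume (AA : Set V) ≠ ∞ := by
  rw [AA_eq]
  exact measure_closedBall_lt_top.ne

instance : IsProbabilityMeasure (nu : Measure V) := by
  constructor
  unfold nu
  rw [Measure.smul_apply, Measure.restrict_apply MeasurableSet.univ, Set.univ_inter, smul_eq_mul]
  exact ENNReal.inv_mul_cancel vol_AA_ne_zero vol_AA_ne_top

theorem ae_nu_mem : ∀ᵐ a ∂(nu : Measure V), a ∈ (AA : Set V) :=
  Measure.ae_smul_measure (ae_restrict_mem measurableSet_AA) _

theorem nu_ac : (nu : Measure V) ≪ volume :=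
  (Measure.absolutelyContinuous_of_le Measure.restrict_le_self).smul_left _

namespace Data

variable (D : Data V)

theorem map_g_vol : (volume : Measure V).map D.g = volume :=
  (D.g.measurePreserving).map_eq

theorem map_g_nu : (nu : Measure V).map D.g = nu := by
  unfold nu
  rw [Measure.map_smul]
  congr 1
  have hpre : D.g ⁻¹' (AA : Set V) = AA := by
    ext x
    exact D.g_mem_AA
  have := (D.g.measurePreserving).restrict_preimage (measurableSet_AA (V := V))
  rw [hpre] at this
  exact this.map_eq

theorem map_b_ac : (nu : Measure V).map D.b ≪ volume := by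
  unfold nu
  rw [Measure.map_smul]
  apply Measure.AbsolutelyContinuous.smul_left
  apply ac_map_of_antilip (K := 1/40) D.measurable_b
  intro a ha a' ha'
  have := ((D.hcfg a ha).estimates D.he1 (D.hcfg a' ha')).2.2.1
  convert this using 2
  norm_num

theorem map_c_ac : (nu : Measure V).map D.c ≪ volume := by
  unfold nu
  rw [Measure.map_smul]
  apply Measure.AbsolutelyContinuous.smul_left
  apply ac_map_of_antilip (K := 5) D.measurable_c
  intro a ha a' ha'
  exact ((D.hcfg a ha).estimates D.he1 (D.hcfg a' ha')).2.2.2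

/-- the marginal measure of the counterexample -/
noncomputable def mu : Measure V := mu6 nu id D.b D.c D.g (D.g ∘ D.b) (D.g ∘ D.c)

theorem mu_ac : D.mu ≪ volume := by
  unfold mu mu6 sum3
  apply Measure.AbsolutelyContinuous.smul_left
  have h0 : (nu : Measure V).map id ≪ volume := by
    rw [Measure.map_id]
    exact nu_ac
  have h3 : (nu : Measure V).map D.g ≪ volume := by
    rw [D.map_g_nu]
    exact nu_ac
  have h4 : (nu : Measure V).map (D.g ∘ D.b) ≪ volume := by
    rw [← Measure.map_map D.measurable_g D.measurable_b]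
    have := D.map_b_ac.map D.measurable_g
    rwa [D.map_g_vol] at this
  have h5 : (nu : Measure V).map (D.g ∘ D.c) ≪ volume := by
    rw [← Measure.map_map D.measurable_g D.measurable_c]
    have := D.map_c_ac.map D.measurable_g
    rwa [D.map_g_vol] at this
  exact ((h0.add_left D.map_b_ac).add_left D.map_c_ac).add_left ((h3.add_left h4).add_left h5)

theorem mu_prob : IsProbabilityMeasure D.mu := by
  constructor
  have hm : ∀ f : V → V, Measurable f → (nu : Measure V).map f Set.univ = 1 := by
    intro f hf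
    rw [Measure.map_apply hf MeasurableSet.univ, Set.preimage_univ, measure_univ]
  unfold mu mu6 sum3
  simp only [Measure.smul_apply, Measure.add_apply, smul_eq_mul]
  rw [hm _ measurable_id, hm _ D.measurable_b, hm _ D.measurable_c, hm _ D.measurable_g,
    hm _ (D.measurable_g.comp D.measurable_b), hm _ (D.measurable_g.comp D.measurable_c)]
  have : (1:ℝ≥0∞) + 1 + 1 + (1 + 1 + 1) = 6 := by norm_num
  rw [this]
  exact ENNReal.inv_mul_cancel (by norm_num) (by norm_num)

theorem ae_mu_W : ∀ᵐ x ∂D.mu, x ∈ D.W := by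
  unfold mu
  apply ae_mu6_of measurable_id D.measurable_b D.measurable_c D.measurable_g
    (D.measurable_g.comp D.measurable_b) (D.measurable_g.comp D.measurable_c) D.measurableSet_W
  · filter_upwards [ae_nu_mem] with a ha
    exact ⟨0, D.mem0 ha⟩
  · filter_upwards [ae_nu_mem] with a ha
    exact ⟨1, D.mem1 ha⟩
  · filter_upwards [ae_nu_mem] with a ha
    exact ⟨2, D.mem2 ha⟩
  · filter_upwards [ae_nu_mem] with a ha
    exact ⟨0, D.mem0' ha⟩
  · filter_upwards [ae_nu_mem] with a ha
    exact ⟨3, D.mem3 ha⟩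
  · filter_upwards [ae_nu_mem] with a ha
    exact ⟨4, D.mem4 ha⟩

theorem kant_mu : kant coul D.mu = 3 * ∫⁻ x, D.ub x ∂D.mu := by
  unfold mu
  apply kant_eq measurable_coul _ measurable_id D.measurable_b D.measurable_c D.measurable_g
    (D.measurable_g.comp D.measurable_b) (D.measurable_g.comp D.measurable_c) D.measurable_ub
    D.ae_mu_W (fun x hx y hy z hz => D.feasible hx hy hz)
  · filter_upwards [ae_nu_mem] with a ha
    exact D.contact1 ha
  · filter_upwards [ae_nu_mem] with a ha
    exact D.contact2 ha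
  · intro x y z
    rw [coul_swap23, coul_swap12]

theorem lintegral_ub_ne_top : ∫⁻ x, D.ub x ∂D.mu ≠ ∞ := by
  have := D.mu_prob
  have h : ∫⁻ x, D.ub x ∂D.mu ≤ ∫⁻ _, 2 ∂D.mu := lintegral_mono D.ub_le
  rw [lintegral_const, measure_univ, mul_one] at h
  exact ne_top_of_le_ne_top (by norm_num) h

include D in
theorem main : ∃ μ : Measure V, IsProbabilityMeasure μ ∧ μ ≪ volume ∧ kant coul μ < ⊤ ∧
    ¬ ∃ T₂ T₃ : V → V, Measurable T₂ ∧ Measurable T₃ ∧ μ.map T₂ = μ ∧ μ.map T₃ = μ ∧
      ∫⁻ x, coul x (T₂ x) (T₃ x) ∂μ = kant coul μ := by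
  refine ⟨D.mu, D.mu_prob, D.mu_ac, ?_, ?_⟩
  · rw [D.kant_mu]
    exact ENNReal.mul_lt_top (by norm_num) D.lintegral_ub_ne_top.lt_top
  · rintro ⟨T₂, T₃, h2, h3, m2, m3, hcost⟩
    rw [D.kant_mu] at hcost
    have hR := monge_contact measurable_coul D.measurable_ub D.ae_mu_W
      (fun x hx y hy z hz => D.feasible hx hy hz) D.lintegral_ub_ne_top h2 h3 m2 m3 hcost
    exact no_monge (R := D.R) measurableSet_AA ae_nu_mem D.measurable_b D.measurable_c
      D.measurable_g D.map_g_nu (fun a ha => D.g_mem_AA.mpr ha) D.injOn_c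
      (fun Z hZ hZA => hZ.image_of_measurable_injOn D.measurable_c (D.injOn_c.mono hZA))
      (fun f h hf hh => measurableSet_eq_fun hf hh)
      (fun a ha y z h => D.G1 ha h) (fun a ha y z h => D.G2 ha h)
      (fun a ha y z h => D.G3 (i := 2) (Or.inl rfl) (D.mem2 ha) h)
      (fun a ha y z h => D.G3 (i := 3) (Or.inr (Or.inl rfl)) (D.mem3 ha) h)
      (fun a ha y z h => D.G3 (i := 4) (Or.inr (Or.inr rfl)) (D.mem4 ha) h)
      (fun a ha => D.notMem (j := 2) (D.mem0 ha) (by decide))
      (fun a ha => D.notMem (j := 2) (D.mem1 ha) (by decide))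
      (fun a ha => D.notMem (j := 2) (D.mem3 ha) (by decide))
      (fun a ha => D.notMem (j := 2) (D.mem4 ha) (by decide))
      h2 h3 m2 m3 hR

end Data

end Vale.Agent.P121
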