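import Vale.Agent.P121.Classify
import Vale.Agent.P121.Counting

namespace Vale.Agent.P121

open MeasureTheory
open scoped RealInnerProductSpace ENNReal

variable {V : Type*} [NormedAddCommGroup V] [InnerProductSpace ℝ V] [FiniteDimensional ℝ V]
  [MeasurableSpace V] [BorelSpace V]

theorem null_image_of_lipschitzOn {f : V → V} {s : Set V} {K : NNReal} (hf : LipschitzOnWith K f s)
    (hs : volume s = 0) : volume (f '' s) = 0 := by
  have h1 : (volume : Measure V) ≪ μH[(Module.finrank ℝ V : ℝ)] :=
    Measure.absolutelyContinuous_isAddHaarMeasure _ _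
  have h2 : μH[(Module.finrank ℝ V : ℝ)] ≪ (volume : Measure V) :=
    Measure.absolutelyContinuous_isAddHaarMeasure _ _
  apply h1
  have h3 := hf.hausdorffMeasure_image_le (d := (Module.finrank ℝ V : ℝ)) (by positivity)
  rw [h2 hs, mul_zero] at h3
  exact nonpos_iff_eq_zero.mp h3

theorem ac_map_of_antilip {f : V → V} {s : Set V} {K : NNReal} (hf : Measurable f)
    (h : ∀ a ∈ s, ∀ a' ∈ s, ‖a - a'‖ ≤ K * ‖f a - f a'‖) :
    ((volume : Measure V).restrict s).map f ≪ volume := by
  have hinj : Set.InjOn f s := by
    intro a ha a' ha' he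
    have := h a ha a' ha'
    rw [he, sub_self, norm_zero, mul_zero] at this
    exact sub_eq_zero.mp (norm_le_zero_iff.mp this)
  have hlip : LipschitzOnWith K (Function.invFunOn f s) (f '' s) := by
    apply LipschitzOnWith.of_dist_le_mul
    rintro _ ⟨a, ha, rfl⟩ _ ⟨a', ha', rfl⟩
    rw [hinj.leftInvOn_invFunOn ha, hinj.leftInvOn_invFunOn ha', dist_eq_norm, dist_eq_norm]
    exact h a ha a' ha'
  refine Measure.AbsolutelyContinuous.mk fun N hN h0 => ?_
  rw [Measure.map_apply hf hN, Measure.restrict_apply (hf hN)]
  have hsub : f ⁻¹' N ∩ s ⊆ Function.invFunOn f s '' (N ∩ f '' s) := by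
    rintro a ⟨haN, has⟩
    exact ⟨f a, ⟨haN, a, has, rfl⟩, hinj.leftInvOn_invFunOn has⟩
  have h1 : volume (N ∩ f '' s) = 0 := measure_mono_null Set.inter_subset_left h0
  exact measure_mono_null hsub
    (null_image_of_lipschitzOn (hlip.mono Set.inter_subset_right) h1)

omit [InnerProductSpace ℝ V] [FiniteDimensional ℝ V] [MeasurableSpace V] [BorelSpace V] in
theorem AA_eq : (AA : Set V) = Metric.closedBall 0 (1/10000) := by
  ext a
  simp [AA]

omit [MeasurableSpace V] [BorelSpace V] in
theorem isCompact_AA : IsCompact (AA : Set V) := by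
  rw [AA_eq]
  exact isCompact_closedBall _ _

omit [InnerProductSpace ℝ V] [FiniteDimensional ℝ V] in
theorem measurableSet_AA : MeasurableSet (AA : Set V) := by
  rw [AA_eq]
  exact Metric.isClosed_closedBall.measurableSet

theorem measurable_coul : Measurable (fun t : V × V × V => coul t.1 t.2.1 t.2.2) := by
  unfold coul
  have m1 : Measurable (fun p : V × V × V => p.1) := measurable_fst
  have m2 : Measurable (fun p : V × V × V => p.2.1) := measurable_fst.comp measurable_snd
  have m3 : Measurable (fun p : V × V × V => p.2.2) := measurable_snd.comp measurable_snd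
  exact (((m1.edist m2).inv).add ((m1.edist m3).inv)).add ((m2.edist m3).inv)

namespace Data

variable (D : Data V)

omit [FiniteDimensional ℝ V] [MeasurableSpace V] [BorelSpace V] in
theorem lip_b : LipschitzOnWith 130 D.b AA := by
  apply LipschitzOnWith.of_dist_le_mul
  intro a ha a' ha'
  rw [dist_eq_norm, dist_eq_norm]
  exact ((D.hcfg a ha).estimates D.he1 (D.hcfg a' ha')).2.1

omit [FiniteDimensional ℝ V] [MeasurableSpace V] [BorelSpace V] in
theorem lip_c : LipschitzOnWith 6 D.c AA := by
  apply LipschitzOnWith.of_dist_le_mul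
  intro a ha a' ha'
  rw [dist_eq_norm, dist_eq_norm]
  exact ((D.hcfg a ha).estimates D.he1 (D.hcfg a' ha')).1

omit [FiniteDimensional ℝ V] in
theorem measurable_b : Measurable D.b := by
  classical
  have h : D.b = (AA : Set V).piecewise D.b (fun _ => D.e1) := by
    funext a
    by_cases ha : a ∈ (AA : Set V)
    · rw [Set.piecewise_eq_of_mem _ _ _ ha]
    · rw [Set.piecewise_eq_of_notMem _ _ _ ha]
      exact D.hbo a ha
  rw [h]
  exact D.lip_b.continuousOn.measurable_piecewise continuousOn_const measurableSet_AA

omit [FiniteDimensional ℝ V] in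
theorem measurable_c : Measurable D.c := by
  classical
  have h : D.c = (AA : Set V).piecewise D.c (fun _ => -D.e1) := by
    funext a
    by_cases ha : a ∈ (AA : Set V)
    · rw [Set.piecewise_eq_of_mem _ _ _ ha]
    · rw [Set.piecewise_eq_of_notMem _ _ _ ha]
      exact D.hco a ha
  rw [h]
  exact D.lip_c.continuousOn.measurable_piecewise continuousOn_const measurableSet_AA

theorem measurable_g : Measurable D.g := D.g.continuous.measurable

theorem measurableSet_P1 : MeasurableSet D.P1 :=
  (isCompact_AA.image_of_continuousOn D.lip_b.continuousOn).isClosed.measurableSet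

theorem measurableSet_P2 : MeasurableSet D.P2 :=
  (isCompact_AA.image_of_continuousOn D.lip_c.continuousOn).isClosed.measurableSet

theorem measurableSet_W : MeasurableSet D.W := by
  have h : D.W = ⋃ i, D.Piece i := by
    ext x
    simp [W]
  rw [h]
  refine MeasurableSet.iUnion fun i => ?_
  fin_cases i
  · exact measurableSet_AA
  · exact D.measurableSet_P1
  · exact D.measurableSet_P2
  · exact D.measurable_g D.measurableSet_P1
  · exact D.measurable_g D.measurableSet_P2

omit [FiniteDimensional ℝ V] [MeasurableSpace V] [BorelSpace V] in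
theorem lip_binv : LipschitzOnWith (1/40) D.binv D.P1 := by
  apply LipschitzOnWith.of_dist_le_mul
  rintro _ ⟨a, ha, rfl⟩ _ ⟨a', ha', rfl⟩
  rw [D.binv_b ha, D.binv_b ha', dist_eq_norm, dist_eq_norm]
  have := ((D.hcfg a ha).estimates D.he1 (D.hcfg a' ha')).2.2.1
  convert this using 2
  norm_num

omit [FiniteDimensional ℝ V] [MeasurableSpace V] [BorelSpace V] in
theorem continuousOn_uBval : ContinuousOn D.uBval AA := by
  have hb := D.lip_b.continuousOn
  have hc := D.lip_c.continuousOn
  have hid : ContinuousOn (fun a : V => a) AA := continuousOn_id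
  have ne : ∀ {w : V} {t : ℝ}, 0 < t → t ≤ ‖w‖ → ‖w‖ ≠ 0 := by
    intro w t ht hw h0
    rw [h0] at hw
    linarith
  have c1 : ContinuousOn (fun a => ‖a - D.b a‖⁻¹) AA :=
    ((hid.sub hb).norm).inv₀ fun a ha => ne (by norm_num) ((D.hcfg a ha).ab D.he1).1
  have c2 : ContinuousOn (fun a => ‖a - D.c a‖⁻¹) AA :=
    ((hid.sub hc).norm).inv₀ fun a ha => ne (by norm_num) ((D.hcfg a ha).ac D.he1).1
  have c3 : ContinuousOn (fun a => ‖D.b a - D.c a‖⁻¹) AA :=
    ((hb.sub hc).norm).inv₀ fun a ha => by
      show ‖D.b a - D.c a‖ ≠ 0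
      rw [norm_sub_rev]
      exact ne (by norm_num) ((D.hcfg a ha).cb D.he1).1
  have c4 : ContinuousOn (fun a : V => uA a) AA := by
    unfold uA
    exact continuousOn_const.sub (continuousOn_const.mul (hid.norm.pow 2))
  have c5 : ContinuousOn (fun a : V => uC D.e1 (D.c a)) AA := by
    unfold uC
    exact (continuousOn_const.add (continuousOn_const.inner (hc.add continuousOn_const))).sub
      (continuousOn_const.mul ((hc.add continuousOn_const).norm.pow 2))
  unfold uBval cR
  exact (((c1.add c2).add c3).sub c4).sub c5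

omit [FiniteDimensional ℝ V] [MeasurableSpace V] [BorelSpace V] in
theorem continuousOn_uB : ContinuousOn D.uB D.P1 := by
  unfold uB
  refine D.continuousOn_uBval.comp D.lip_binv.continuousOn ?_
  rintro _ ⟨a, ha, rfl⟩
  rw [D.binv_b ha]
  exact ha

theorem measurable_u : Measurable D.u := by
  classical
  have m0 : Measurable ((AA : Set V).indicator uA) := by
    apply Measurable.indicator _ measurableSet_AA
    unfold uA
    fun_prop
  have m1 : Measurable (D.P1.indicator D.uB) := by
    rw [← Set.piecewise_eq_indicator]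
    exact D.continuousOn_uB.measurable_piecewise continuousOn_const D.measurableSet_P1
  have m2 : Measurable (D.P2.indicator (uC D.e1)) := by
    apply Measurable.indicator _ D.measurableSet_P2
    unfold uC
    fun_prop
  unfold u
  exact (m0.add (m1.add m2)).add ((m1.comp D.measurable_g).add (m2.comp D.measurable_g))

theorem measurable_ub : Measurable D.ub := D.measurable_u.ennreal_ofReal

end Data

end Vale.Agent.P121
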