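import Vale.Agent.P121.Geom

namespace Vale.Agent.P121

open scoped RealInnerProductSpace

variable {V : Type*} [NormedAddCommGroup V] [InnerProductSpace ℝ V]

theorem EF_unit {e : V} (he : ‖e‖ = 1) : EF e = -e := by
  simp [EF, he]

theorem EF_neg_unit {e : V} (he : ‖e‖ = 1) : EF (-e) = e := by
  rw [EF_neg, EF_unit he, neg_neg]

theorem EF_neg_two {e : V} (he : ‖e‖ = 1) : EF (-((2:ℝ) • e)) = (1/4:ℝ) • e := by
  rw [EF_neg]
  unfold EF
  rw [norm_smul, he, neg_neg, smul_smul]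
  norm_num

/-- auxiliary maps for the fixed point problem -/
noncomputable def Ymap (a q : V) : V := -((100:ℝ) • a) - EF q

noncomputable def Pmap (a q : V) : V := EFinv (Ymap a q)

noncomputable def Gmap (e a q : V) : V :=
  a + e - (1/10:ℝ) • ((5/4:ℝ) • e + EF q - EF (Pmap a q - q))

theorem aux_q {e q : V} (he : ‖e‖ = 1) (hq : ‖q - e‖ ≤ 8/10000) : 99/100 ≤ ‖q‖ := by
  have h : ‖e‖ ≤ ‖q‖ + ‖q - e‖ := by
    have := norm_sub_le q (q - e)
    simpa using this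
  rw [he] at h
  linarith

theorem aux_EFq {e q q' : V} (he : ‖e‖ = 1) (hq : ‖q - e‖ ≤ 8/10000) (hq' : ‖q' - e‖ ≤ 8/10000) :
    ‖EF q - EF q'‖ ≤ 21/10 * ‖q - q'‖ := by
  have h := EF_lipschitz (d := 99/100) (by norm_num) (aux_q he hq) (aux_q he hq')
  have h2 : (2:ℝ) / (99/100) ^ 3 ≤ 21/10 := by norm_num
  exact h.trans (mul_le_mul_of_nonneg_right h2 (norm_nonneg _))

theorem aux_Y {e a q : V} (he : ‖e‖ = 1) (ha : ‖a‖ ≤ 1/10000) (hq : ‖q - e‖ ≤ 8/10000) :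
    ‖Ymap a q - e‖ ≤ 12/1000 := by
  have h1 : Ymap a q - e = -((100:ℝ) • a) - (EF q - EF e) := by
    rw [EF_unit he]
    unfold Ymap
    abel
  have h2 := aux_EFq he hq (by rw [sub_self, norm_zero]; norm_num : ‖e - e‖ ≤ 8/10000)
  rw [h1]
  calc ‖-((100:ℝ) • a) - (EF q - EF e)‖ ≤ ‖-((100:ℝ) • a)‖ + ‖EF q - EF e‖ := norm_sub_le _ _
    _ ≤ 100 * ‖a‖ + 21/10 * ‖q - e‖ := by
        rw [norm_neg, norm_smul]
        simp only [Real.norm_eq_abs]
        norm_num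
        linarith
    _ ≤ 12/1000 := by linarith

theorem aux_Ynorm {e a q : V} (he : ‖e‖ = 1) (ha : ‖a‖ ≤ 1/10000) (hq : ‖q - e‖ ≤ 8/10000) :
    988/1000 ≤ ‖Ymap a q‖ := by
  have h : ‖e‖ ≤ ‖Ymap a q‖ + ‖Ymap a q - e‖ := by
    have := norm_sub_le (Ymap a q) (Ymap a q - e)
    simpa using this
  have := aux_Y he ha hq
  rw [he] at h
  linarith

theorem aux_Yne {e a q : V} (he : ‖e‖ = 1) (ha : ‖a‖ ≤ 1/10000) (hq : ‖q - e‖ ≤ 8/10000) :
    Ymap a q ≠ 0 := by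
  have := aux_Ynorm he ha hq
  intro h
  rw [h, norm_zero] at this
  norm_num at this

theorem aux_Pnorm {e a q : V} (he : ‖e‖ = 1) (ha : ‖a‖ ≤ 1/10000) (hq : ‖q - e‖ ≤ 8/10000) :
    0 < ‖Pmap a q‖ ∧ ‖Pmap a q‖ ≤ 101/100 := by
  have hY := aux_Ynorm he ha hq
  have hne := aux_Yne he ha hq
  unfold Pmap
  rw [norm_EFinv hne]
  have hs : 100/101 ≤ Real.sqrt ‖Ymap a q‖ := by
    apply Real.le_sqrt_of_sq_le
    norm_num
    linarith
  constructor
  · have : 0 < Real.sqrt ‖Ymap a q‖ := by linarith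
    positivity
  · have := inv_anti₀ (by norm_num : (0:ℝ) < 100/101) hs
    norm_num at this ⊢
    linarith

theorem aux_Pne {e a q : V} (he : ‖e‖ = 1) (ha : ‖a‖ ≤ 1/10000) (hq : ‖q - e‖ ≤ 8/10000) :
    Pmap a q ≠ 0 := norm_pos_iff.mp (aux_Pnorm he ha hq).1

theorem EF_Pmap {e a q : V} (he : ‖e‖ = 1) (ha : ‖a‖ ≤ 1/10000) (hq : ‖q - e‖ ≤ 8/10000) :
    EF (Pmap a q) = Ymap a q := EF_EFinv (aux_Yne he ha hq)

theorem aux_Pe {e a q : V} (he : ‖e‖ = 1) (ha : ‖a‖ ≤ 1/10000) (hq : ‖q - e‖ ≤ 8/10000) :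
    ‖Pmap a q + e‖ ≤ 13/1000 := by
  have hne : (-e : V) ≠ 0 := by
    intro h
    have : ‖(-e : V)‖ = 0 := by rw [h, norm_zero]
    rw [norm_neg, he] at this
    norm_num at this
  have h := EF_antilipschitz (D := 101/100) (aux_Pne he ha hq) hne (aux_Pnorm he ha hq).2
    (by rw [norm_neg, he]; norm_num)
  rw [EF_Pmap he ha hq, EF_neg_unit he, sub_neg_eq_add] at h
  have := aux_Y he ha hq
  norm_num at h
  linarith

theorem aux_PP {e a q q' : V} (he : ‖e‖ = 1) (ha : ‖a‖ ≤ 1/10000) (hq : ‖q - e‖ ≤ 8/10000)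
    (hq' : ‖q' - e‖ ≤ 8/10000) : ‖Pmap a q - Pmap a q'‖ ≤ 22/10 * ‖q - q'‖ := by
  have h := EF_antilipschitz (D := 101/100) (aux_Pne he ha hq) (aux_Pne he ha hq')
    (aux_Pnorm he ha hq).2 (aux_Pnorm he ha hq').2
  rw [EF_Pmap he ha hq, EF_Pmap he ha hq'] at h
  have h2 : Ymap a q - Ymap a q' = -(EF q - EF q') := by
    unfold Ymap
    abel
  rw [h2, norm_neg] at h
  have h3 := aux_EFq he hq hq'
  norm_num at h
  have h0 : 0 ≤ ‖q - q'‖ := norm_nonneg _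
  linarith

theorem aux_Pq {e a q : V} (he : ‖e‖ = 1) (ha : ‖a‖ ≤ 1/10000) (hq : ‖q - e‖ ≤ 8/10000) :
    ‖(Pmap a q - q) - (-((2:ℝ) • e))‖ ≤ 14/1000 := by
  have h1 : (Pmap a q - q) - (-((2:ℝ) • e)) = (Pmap a q + e) - (q - e) := by
    rw [two_smul]
    abel
  rw [h1]
  have := norm_sub_le (Pmap a q + e) (q - e)
  have := aux_Pe he ha hq
  linarith

theorem aux_Pqnorm {e a q : V} (he : ‖e‖ = 1) (ha : ‖a‖ ≤ 1/10000) (hq : ‖q - e‖ ≤ 8/10000) :
    198/100 ≤ ‖Pmap a q - q‖ := by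
  have h : ‖-((2:ℝ) • e)‖ ≤ ‖Pmap a q - q‖ + ‖(Pmap a q - q) - (-((2:ℝ) • e))‖ := by
    have := norm_sub_le (Pmap a q - q) ((Pmap a q - q) - (-((2:ℝ) • e)))
    simpa using this
  have h2 : ‖-((2:ℝ) • e)‖ = 2 := by
    rw [norm_neg, norm_smul, he]
    norm_num
  have := aux_Pq he ha hq
  rw [h2] at h
  linarith

theorem aux_two {e : V} (he : ‖e‖ = 1) : (198/100 : ℝ) ≤ ‖-((2:ℝ) • e)‖ := by
  rw [norm_neg, norm_smul, he]
  norm_num

theorem Gmap_lip {e a q q' : V} (he : ‖e‖ = 1) (ha : ‖a‖ ≤ 1/10000) (hq : ‖q - e‖ ≤ 8/10000)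
    (hq' : ‖q' - e‖ ≤ 8/10000) : ‖Gmap e a q - Gmap e a q'‖ ≤ 3/10 * ‖q - q'‖ := by
  have h1 : Gmap e a q - Gmap e a q'
      = (1/10:ℝ) • ((EF (Pmap a q - q) - EF (Pmap a q' - q')) - (EF q - EF q')) := by
    unfold Gmap
    rw [smul_sub, smul_sub, smul_sub, smul_sub, smul_sub, smul_add, smul_add]
    abel
  have h2 := EF_lipschitz (d := 198/100) (by norm_num) (aux_Pqnorm he ha hq) (aux_Pqnorm he ha hq')
  have h3 : ‖(Pmap a q - q) - (Pmap a q' - q')‖ ≤ ‖Pmap a q - Pmap a q'‖ + ‖q - q'‖ := by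
    have : (Pmap a q - q) - (Pmap a q' - q') = (Pmap a q - Pmap a q') - (q - q') := by abel
    rw [this]
    exact norm_sub_le _ _
  have h4 := aux_PP he ha hq hq'
  have h5 := aux_EFq he hq hq'
  have h0 : 0 ≤ ‖q - q'‖ := norm_nonneg _
  rw [h1, norm_smul]
  have h6 := norm_sub_le (EF (Pmap a q - q) - EF (Pmap a q' - q')) (EF q - EF q')
  have h7 : (2:ℝ) / (198/100) ^ 3 ≤ 26/100 := by norm_num
  have h8 : ‖EF (Pmap a q - q) - EF (Pmap a q' - q')‖ ≤ 26/100 * (32/10 * ‖q - q'‖) := by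
    refine h2.trans ?_
    have : ‖(Pmap a q - q) - (Pmap a q' - q')‖ ≤ 32/10 * ‖q - q'‖ := by linarith
    gcongr
  simp only [Real.norm_eq_abs]
  norm_num
  linarith

theorem Gmap_maps {e a q : V} (he : ‖e‖ = 1) (ha : ‖a‖ ≤ 1/10000) (hq : ‖q - e‖ ≤ 8/10000) :
    ‖Gmap e a q - e‖ ≤ 8/10000 := by
  have h1 : Gmap e a q - e
      = a - (1/10:ℝ) • ((EF q - EF e) - (EF (Pmap a q - q) - EF (-((2:ℝ) • e)))) := by
    unfold Gmap
    rw [EF_unit he, EF_neg_two he]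
    module
  have h2 := EF_lipschitz (d := 198/100) (by norm_num) (aux_Pqnorm he ha hq) (aux_two he)
  have h3 := aux_Pq he ha hq
  have h5 := aux_EFq he hq (by rw [sub_self, norm_zero]; norm_num : ‖e - e‖ ≤ 8/10000)
  have h7 : (2:ℝ) / (198/100) ^ 3 ≤ 26/100 := by norm_num
  have h8 : ‖EF (Pmap a q - q) - EF (-((2:ℝ) • e))‖ ≤ 26/100 * (14/1000) := by
    refine h2.trans ?_
    gcongr
  rw [h1]
  have h9 := norm_sub_le a ((1/10:ℝ) • ((EF q - EF e) - (EF (Pmap a q - q) - EF (-((2:ℝ) • e)))))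
  have h10 := norm_sub_le (EF q - EF e) (EF (Pmap a q - q) - EF (-((2:ℝ) • e)))
  rw [norm_smul] at h9
  simp only [Real.norm_eq_abs] at h9
  norm_num at h9
  linarith

theorem exists_fixed [CompleteSpace V] {e a : V} (he : ‖e‖ = 1) (ha : ‖a‖ ≤ 1/10000) :
    ∃ q : V, ‖q - e‖ ≤ 8/10000 ∧ Gmap e a q = q := by
  have hmaps : Set.MapsTo (Gmap e a) (Metric.closedBall e (8/10000)) (Metric.closedBall e (8/10000)) := by
    intro q hq
    rw [Metric.mem_closedBall, dist_eq_norm] at hq ⊢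
    exact Gmap_maps he ha hq
  have hc : ContractingWith (3/10 : NNReal) (hmaps.restrict (Gmap e a) _ _) := by
    refine ⟨by norm_num, ?_⟩
    apply LipschitzWith.of_dist_le_mul
    rintro ⟨q, hq⟩ ⟨q', hq'⟩
    rw [Metric.mem_closedBall, dist_eq_norm] at hq hq'
    have := Gmap_lip he ha hq hq'
    simp only [Subtype.dist_eq, Set.MapsTo.val_restrict_apply, dist_eq_norm]
    convert this using 2
    norm_num
  obtain ⟨y, hy, hfix, -⟩ := ContractingWith.exists_fixedPoint' (x := e)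
    (Metric.isClosed_closedBall.isComplete) hmaps hc
    (Metric.mem_closedBall_self (by norm_num)) (edist_ne_top _ _)
  rw [Metric.mem_closedBall, dist_eq_norm] at hy
  exact ⟨y, hy, hfix⟩

theorem exists_solution [CompleteSpace V] {e a : V} (he : ‖e‖ = 1) (ha : ‖a‖ ≤ 1/10000) :
    ∃ b c : V, (100:ℝ) • a + EF (a - b) + EF (a - c) = 0 ∧
      EF (c - a) + EF (c - b) = (5/4:ℝ) • e - (10:ℝ) • (c + e) ∧
      ‖b - e‖ ≤ 3/200 ∧ ‖c + e‖ ≤ 1/1000 := by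
  obtain ⟨q, hq, hfix⟩ := exists_fixed he ha
  refine ⟨a - Pmap a q, a - q, ?_, ?_, ?_, ?_⟩
  · rw [sub_sub_cancel, sub_sub_cancel, EF_Pmap he ha hq]
    unfold Ymap
    abel
  · have h1 : a - q - a = -q := by abel
    have h2 : a - q - (a - Pmap a q) = Pmap a q - q := by abel
    rw [h1, h2, EF_neg]
    have h3 : (10:ℝ) • (a - q + e) = (5/4:ℝ) • e + EF q - EF (Pmap a q - q) := by
      have : a - q + e = (1/10:ℝ) • ((5/4:ℝ) • e + EF q - EF (Pmap a q - q)) := by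
        conv_lhs => rw [← hfix]
        unfold Gmap
        abel
      rw [this, smul_smul]
      norm_num
    rw [h3]
    abel
  · have h1 : a - Pmap a q - e = a - (Pmap a q + e) := by abel
    rw [h1]
    have := norm_sub_le a (Pmap a q + e)
    have := aux_Pe he ha hq
    linarith
  · have h1 : a - q + e = a - (q - e) := by abel
    rw [h1]
    have := norm_sub_le a (q - e)
    linarith

end Vale.Agent.P121
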